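import Vale.Agent.P207.N3.Top.Defs

/-!
# P207, N3-P13T (4.2, types of closed orbits): the inputs

* `DivIn` : what the types need from P3 / P10 / LINK: the tensor `T'` and the vector `X'` in a
  normal coordinate, the divergence formula, (R0), (R2);
* `LimFn`, `LimDir` : what they need from the leading parts (P4) and the limit rule (P5);
* `SquareOrb` : the orbit run twice.
-/

open Set Filter Topology Metric MeasureTheory
open scoped ContDiff

noncomputable section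

namespace Vale.Agent.P207.N3

open H790 (NF)

variable {Γ X B : Type} [Group Γ] [MetricSpace X] [ProperSpace X] [MulAction Γ X]
  [IsIsometricSMul Γ X] [TopologicalSpace B] [CompactSpace B] [T2Space B] [MulAction Γ B]
  [ContinuousConstSMul Γ B]

/-- smooth in a neighbourhood of `0` -/
def SmNear {F : Type} [NormedAddCommGroup F] [NormedSpace ℝ F] (g : E2 → F) : Prop :=
  ∃ ρ > 0, ContDiffOn ℝ ∞ g (ball 0 ρ)

/-- `M ↦ A M Aᵀ` -/
def conj (A M : E2 →L[ℝ] E2) : E2 →L[ℝ] E2 := A ∘L M ∘L ContinuousLinearMap.adjoint A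

/-- the basis vectors of the plane -/
def bas (i : Fin 2) : E2 := EuclideanSpace.single i 1

/-- the normal coordinate as a function on the disc of the axis frame -/
def Nor.g {L : Leaf Γ X B} {o : Orb L} (n : Nor L o) (u : E2) : E2 := n.x (L.e o.x u)

/-- (P3, P10, LINK) the tensor `T'` and the vector field `X'` in a normal coordinate, near `β^+`:
`T'(x) = D²S'_x(0)`, `X'(x) = ∇X'_x(0)` -/
structure DivIn {L : Leaf Γ X B} (T : Tens L) {o : Orb L} (n : Nor L o) where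
  r : ℝ
  r_pos : 0 < r
  Tp : E2 → E2 →L[ℝ] E2
  Xp : E2 → E2
  Tp_cont : ContinuousOn Tp (ball 0 r)
  Tp_symm : ∀ x ∈ ball (0 : E2) r, ∀ v w, inner ℝ (Tp x v) w = inner ℝ v (Tp x w)
  Xp_cont : ContinuousOn Xp (ball 0 r)
  /-- LINK: `T'` is the tensor of `E^s` in the normal coordinate, up to a smooth tensor -/
  link : SmNear (fun u => Tp (n.g u) - conj (fderiv ℝ n.g u) (T.N o.x u))
  /-- the divergence formula `∑ᵢ ∂ᵢ T'_{ij} = X'_j`, weakly -/
  div : ∀ χ : E2 → ℝ, ContDiff ℝ ∞ χ → HasCompactSupport χ → tsupport χ ⊆ ball 0 r → ∀ v : E2,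
    ∫ x, inner ℝ (Tp x (gradient χ x)) v = - ∫ x, χ x * inner ℝ (Xp x) v
  /-- (R0), `r > 1` -/
  R0 : n.N.Split → SmNear (fun x => Xp x 1)
  /-- (R0), `r = 1`, real eigenvalues -/
  R0' : (∃ μ₁ μ₂ a k, n.N = .tri μ₁ μ₂ a k) → ¬ n.N.Split → SmNear Xp
  /-- (R2) -/
  R2 : n.N.Split → SmNear (fun x => Tp x (bas 1) 1) → SmNear (fun x => Xp x 0)

/-- The possible limits `P` of rescaled functions along `U_{ζ^-}`, in the normal coordinate. -/
def LimFn : NF → (E2 → ℝ) → Prop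
  | .tri μ₁ μ₂ a _, P =>
    (|μ₂| < |μ₁| ∧ ∃ c ≠ 0, ∃ j : ℕ, 1 ≤ j ∧ |μ₂| ^ j ≤ |μ₁| ∧ P = fun x => c * x 1 ^ j) ∨
    (|μ₂| < |μ₁| ∧ a = 0 ∧ ∃ c ≠ 0, ∃ (c' : ℝ) (j : ℕ), (c' ≠ 0 → |μ₂| ^ j = |μ₁|) ∧
      P = fun x => c * x 0 + c' * x 1 ^ j) ∨
    (|μ₂| = |μ₁| ∧ a = 0 ∧ ∃ v : E2, v ≠ 0 ∧ P = fun x => inner ℝ v x) ∨
    (|μ₂| = |μ₁| ∧ a ≠ 0 ∧ ∃ c ≠ 0, P = fun x => c * x 1)
  | .cx _ _, P => ∃ v : E2, v ≠ 0 ∧ P = fun x => inner ℝ v x

/-- (P4 leading parts + P5 limit rule) in every normal coordinate there is a limit function `P`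
with `E^s(dP, ·)` of class `C^k` near `β^+`. -/
def LimDir {L : Leaf Γ X B} (T : Tens L) (k : ℕ) : Prop :=
  ∀ (o : Orb L) (n : Nor L o), ∃ P, LimFn n.N P ∧
    ContDiffAt ℝ k (fun u => T.N o.x u (gradient (fun u => P (n.g u)) u)) 0

end Vale.Agent.P207.N3
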