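import Vale.Agent.P207.N3.H503.Form
import Vale.Agent.P207.N3.H854.Basic

/-!
# P207, N3-P13T: changes of the normal coordinate; the orbit run twice
-/

open Set Filter Topology Metric MeasureTheory
open scoped ContDiff

noncomputable section

namespace Vale.Agent.P207.N3.H503

open H790 (NF)
open H545

/-- a change of coordinates of the plane which conjugates two normal forms -/
structure Chg (N N' : NF) where
  S : E2 → E2
  S' : E2 → E2
  smooth : ContDiff ℝ ∞ S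
  smooth' : ContDiff ℝ ∞ S'
  left : ∀ z, S' (S z) = z
  right : ∀ z, S (S' z) = z
  zero : S 0 = 0
  conj : ∀ z, S (N.fn z) = N'.fn (S z)

theorem det_comp2 (A A' : E2 →L[ℝ] E2) : (A.comp A').det = A.det * A'.det :=
  LinearMap.det_comp _ _

theorem Chg.det_ne {N N' : NF} (c : Chg N N') (z : E2) : (fderiv ℝ c.S z).det ≠ 0 := by
  have h1 : HasFDerivAt c.S (fderiv ℝ c.S z) z :=
    (c.smooth.contDiffAt.differentiableAt (by simp)).hasFDerivAt
  have h2 : HasFDerivAt c.S' (fderiv ℝ c.S' (c.S z)) (c.S z) :=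
    (c.smooth'.contDiffAt.differentiableAt (by simp)).hasFDerivAt
  have h3 := h2.comp z h1
  have h4 : c.S' ∘ c.S = id := funext c.left
  rw [h4] at h3
  have h5 := h3.unique (hasFDerivAt_id z)
  have h6 := congrArg ContinuousLinearMap.det h5
  rw [det_comp2] at h6
  intro h7
  rw [h7, mul_zero] at h6
  have h8 : (ContinuousLinearMap.id ℝ E2).det = 1 := LinearMap.det_id
  rw [h8] at h6
  exact zero_ne_one h6

variable {Γ X B : Type} [Group Γ] [MetricSpace X] [ProperSpace X] [MulAction Γ X]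
  [IsIsometricSMul Γ X] [TopologicalSpace B] [CompactSpace B] [T2Space B] [MulAction Γ B]
  [ContinuousConstSMul Γ B]

variable {L : Leaf Γ X B} {o : Orb L}

/-- the changed normal coordinate -/
def chg (n : Nor L o) {N' : NF} (c : Chg n.N N') (hok : N'.OK) : Nor L o where
  N := N'
  ok := hok
  x := fun η => c.S (n.x η)
  base := by rw [n.base, c.zero]
  equiv := fun η hη => by rw [n.equiv η hη, c.conj]
  smooth := fun y hy => c.smooth.comp_contDiffOn (n.smooth y hy)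
  inv := fun z => n.inv (c.S' z)
  inv_cont := n.inv_cont.comp c.smooth'.continuous
  inv_ne := fun z => n.inv_ne _
  inv_right := fun z => by rw [n.inv_right, c.right]
  inv_left := fun η hη => by rw [c.left, n.inv_left η hη]
  deriv := fun y hy u hu => by
    have h1 : ContDiffAt ℝ ∞ (fun u => n.x (L.e y u)) u :=
      (n.smooth y hy u hu).contDiffAt (isOpen_ball.mem_nhds hu)
    have h2 := (h1.differentiableAt (by simp)).hasFDerivAt
    have h3 : HasFDerivAt c.S (fderiv ℝ c.S (n.x (L.e y u))) (n.x (L.e y u)) :=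
      (c.smooth.contDiffAt.differentiableAt (by simp)).hasFDerivAt
    have h4 := (h3.comp u h2).fderiv
    have h5 : fderiv ℝ (fun u => c.S (n.x (L.e y u))) u = _ := h4
    rw [h5, det_comp2]
    exact mul_ne_zero (c.det_ne _) (n.deriv y hy u hu)

theorem chg_N (n : Nor L o) {N' : NF} (c : Chg n.N N') (hok : N'.OK) : (chg n c hok).N = N' := rfl

theorem chg_g (n : Nor L o) {N' : NF} (c : Chg n.N N') (hok : N'.OK) (u : E2) :
    (chg n c hok).g u = c.S (n.g u) := rfl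

/-! ### The shear -/

theorem mk_0 (x y : ℝ) : (!₂[x, y] : E2) 0 = x := rfl
theorem mk_1 (x y : ℝ) : (!₂[x, y] : E2) 1 = y := rfl

/-- `(x₀ + t x₁^j, x₁)` -/
def shear (t : ℝ) (j : ℕ) (x : E2) : E2 := !₂[x 0 + t * x 1 ^ j, x 1]

theorem contDiff_shear (t : ℝ) (j : ℕ) : ContDiff ℝ ∞ (shear t j) :=
  NF.contDiff_mk ((NF.contDiff_coord 0).add (contDiff_const.mul ((NF.contDiff_coord 1).pow j)))
    (NF.contDiff_coord 1)

theorem shear_shear (t s : ℝ) (j : ℕ) (h : t + s = 0) (x : E2) : shear t j (shear s j x) = x := by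
  have hs : s = - t := by linarith
  subst hs
  refine NF.ext2 ?_ ?_
  · show (x 0 + -t * x 1 ^ j) + t * x 1 ^ j = x 0
    ring
  · rfl

/-- the shear commutes with a diagonal normal form in resonance -/
def shearChg {μ₁ μ₂ : ℝ} {k : ℕ} (t : ℝ) (j : ℕ) (hj : 1 ≤ j) (h : t ≠ 0 → μ₂ ^ j = μ₁) :
    Chg (NF.tri μ₁ μ₂ 0 k) (NF.tri μ₁ μ₂ 0 k) where
  S := shear t j
  S' := shear (-t) j
  smooth := contDiff_shear t j
  smooth' := contDiff_shear (-t) j
  left := shear_shear _ _ _ (by ring)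
  right := shear_shear _ _ _ (by ring)
  zero := by
    refine NF.ext2 ?_ rfl
    show (0 : ℝ) + t * 0 ^ j = 0
    rw [zero_pow (by omega)]; ring
  conj := fun z => by
    refine NF.ext2 ?_ ?_
    · show (μ₁ * z 0 + 0 * z 1 ^ k) + t * (μ₂ * z 1) ^ j = μ₁ * (z 0 + t * z 1 ^ j) + 0 * z 1 ^ k
      rcases eq_or_ne t 0 with ht | ht
      · rw [ht]; ring
      · rw [mul_pow, h ht]; ring
    · rfl

/-! ### Linear changes, scalar case -/

/-- `(-v₁ x₀ + v₀ x₁, v₀ x₀ + v₁ x₁)` -/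
def rotv (v : E2) (x : E2) : E2 := !₂[-(v 1) * x 0 + v 0 * x 1, v 0 * x 0 + v 1 * x 1]

theorem contDiff_rotv (v : E2) : ContDiff ℝ ∞ (rotv v) :=
  NF.contDiff_mk ((contDiff_const.mul (NF.contDiff_coord 0)).add
    (contDiff_const.mul (NF.contDiff_coord 1))) ((contDiff_const.mul (NF.contDiff_coord 0)).add
    (contDiff_const.mul (NF.contDiff_coord 1)))

theorem sq_pos_of_ne {v : E2} (hv : v ≠ 0) : 0 < v 0 ^ 2 + v 1 ^ 2 := by
  by_contra h
  apply hv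
  have h0 : v 0 ^ 2 + v 1 ^ 2 = 0 := le_antisymm (not_lt.1 h) (by positivity)
  have h1 : v 0 = 0 := by nlinarith [sq_nonneg (v 0), sq_nonneg (v 1)]
  have h2 : v 1 = 0 := by nlinarith [sq_nonneg (v 0), sq_nonneg (v 1)]
  exact NF.ext2 h1 h2

/-- the linear change with second coordinate `⟨v, x⟩` -/
def rotChg {μ : ℝ} {k : ℕ} (v : E2) (hv : v ≠ 0) : Chg (NF.tri μ μ 0 k) (NF.tri μ μ 0 k) where
  S := rotv v
  S' := fun x => (v 0 ^ 2 + v 1 ^ 2)⁻¹ • rotv v x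
  smooth := contDiff_rotv v
  smooth' := (contDiff_const (c := (v 0 ^ 2 + v 1 ^ 2)⁻¹)).smul (contDiff_rotv v)
  left := fun z => by
    have h := (sq_pos_of_ne hv).ne'
    refine NF.ext2 ?_ ?_
    · show (v 0 ^ 2 + v 1 ^ 2)⁻¹ * (-(v 1) * (-(v 1) * z 0 + v 0 * z 1) +
        v 0 * (v 0 * z 0 + v 1 * z 1)) = z 0
      field_simp; ring
    · show (v 0 ^ 2 + v 1 ^ 2)⁻¹ * (v 0 * (-(v 1) * z 0 + v 0 * z 1) +
        v 1 * (v 0 * z 0 + v 1 * z 1)) = z 1
      field_simp; ring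
  right := fun z => by
    have h := (sq_pos_of_ne hv).ne'
    refine NF.ext2 ?_ ?_
    · show -(v 1) * ((v 0 ^ 2 + v 1 ^ 2)⁻¹ * (-(v 1) * z 0 + v 0 * z 1)) +
        v 0 * ((v 0 ^ 2 + v 1 ^ 2)⁻¹ * (v 0 * z 0 + v 1 * z 1)) = z 0
      field_simp; ring
    · show v 0 * ((v 0 ^ 2 + v 1 ^ 2)⁻¹ * (-(v 1) * z 0 + v 0 * z 1)) +
        v 1 * ((v 0 ^ 2 + v 1 ^ 2)⁻¹ * (v 0 * z 0 + v 1 * z 1)) = z 1
      field_simp; ring
  zero := by
    refine NF.ext2 ?_ ?_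
    · show -(v 1) * (0 : ℝ) + v 0 * 0 = 0
      ring
    · show v 0 * (0 : ℝ) + v 1 * 0 = 0
      ring
  conj := fun z => by
    refine NF.ext2 ?_ ?_
    · show -(v 1) * (μ * z 0 + 0 * z 1 ^ k) + v 0 * (μ * z 1) =
        μ * (-(v 1) * z 0 + v 0 * z 1) + 0 * (v 0 * z 0 + v 1 * z 1) ^ k
      ring
    · show v 0 * (μ * z 0 + 0 * z 1 ^ k) + v 1 * (μ * z 1) = μ * (v 0 * z 0 + v 1 * z 1)
      ring

/-! ### The orbit run twice -/

/-- the orbit run twice -/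
def dbl (o : Orb L) : Orb L := o.pow 2 two_pos

theorem dbl_β (o : Orb L) : (dbl o).β = o.β * o.β := pow_two o.β

theorem dbl_x (o : Orb L) : (dbl o).x = o.x := rfl

theorem dbl_neg (o : Orb L) : (dbl o).neg = o.neg := rfl

/-- the normal form of the orbit run twice -/
def sqN (μ₁ μ₂ a : ℝ) (k : ℕ) : NF := .tri (μ₁ * μ₁) (μ₂ * μ₂) (a * (μ₁ + μ₂ ^ k)) k

theorem sqN_fn (μ₁ μ₂ a : ℝ) (k : ℕ) (x : E2) :
    (sqN μ₁ μ₂ a k).fn x = (NF.tri μ₁ μ₂ a k).fn ((NF.tri μ₁ μ₂ a k).fn x) := by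
  refine NF.ext2 ?_ ?_
  · show μ₁ * μ₁ * x 0 + a * (μ₁ + μ₂ ^ k) * x 1 ^ k =
      μ₁ * (μ₁ * x 0 + a * x 1 ^ k) + a * (μ₂ * x 1) ^ k
    rw [mul_pow]; ring
  · show μ₂ * μ₂ * x 1 = μ₂ * (μ₂ * x 1)
    ring

theorem sqN_ok {μ₁ μ₂ a : ℝ} {k : ℕ} (h : (NF.tri μ₁ μ₂ a k).OK) : (sqN μ₁ μ₂ a k).OK := by
  obtain ⟨h1, h2, h3⟩ := h
  refine ⟨?_, ?_, ?_⟩
  · rw [abs_mul]; nlinarith [h1, abs_nonneg μ₂]
  · rw [abs_mul, abs_mul]
    exact mul_le_mul h2 h2 (abs_nonneg _) (abs_nonneg _)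
  · intro ha
    have ha' : a ≠ 0 := fun h => ha (by rw [h, zero_mul])
    obtain ⟨hk, hμ⟩ := h3 ha'
    refine ⟨hk, ?_⟩
    rw [hμ, mul_pow]

/-- the normal coordinate of the orbit run twice -/
def dblNor (n : Nor L o) {μ₁ μ₂ a : ℝ} {k : ℕ} (hN : n.N = .tri μ₁ μ₂ a k) : Nor L (dbl o) where
  N := sqN μ₁ μ₂ a k
  ok := sqN_ok (hN ▸ n.ok)
  x := n.x
  base := n.base
  equiv := fun η hη => by
    have hη' : η ≠ o.neg := hη
    have h1 : o.β⁻¹ • η ≠ o.neg := H854.inv_smul_ne_neg _ hη'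
    have h2 : (dbl o).β⁻¹ • η = o.β⁻¹ • (o.β⁻¹ • η) := by
      rw [dbl_β, mul_inv_rev, mul_smul]
    rw [h2, n.equiv _ h1, n.equiv _ hη', sqN_fn, hN]
  smooth := n.smooth
  inv := n.inv
  inv_cont := n.inv_cont
  inv_ne := n.inv_ne
  inv_right := n.inv_right
  inv_left := n.inv_left
  deriv := n.deriv

theorem dblNor_N (n : Nor L o) {μ₁ μ₂ a : ℝ} {k : ℕ} (hN : n.N = .tri μ₁ μ₂ a k) :
    (dblNor n hN).N = sqN μ₁ μ₂ a k := rfl

end Vale.Agent.P207.N3.H503
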