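import Vale.Agent.P207.N3.H503.Dir
import Vale.Agent.P207.N3.H684.DivT

/-!
# P207, N3-P13T: from `E^s(dx_i^m, ·)` smooth to the local form `E^s = W + b(x_i) e_{i'} e_{i'}ᵀ`
-/

open Set Filter Topology Metric MeasureTheory
open scoped ContDiff

noncomputable section

namespace Vale.Agent.P207.N3.H503

open H790 (NF)
open H545

variable {Γ X B : Type} [Group Γ] [MetricSpace X] [ProperSpace X] [MulAction Γ X]
  [IsIsometricSMul Γ X] [TopologicalSpace B] [CompactSpace B] [T2Space B] [MulAction Γ B]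
  [ContinuousConstSMul Γ B]

/-- coordinate projection -/
def pr (i : Fin 2) : E2 →L[ℝ] ℝ := EuclideanSpace.proj (𝕜 := ℝ) i

theorem pr_apply (i : Fin 2) (v : E2) : pr i v = v i := rfl

theorem inner_bas (v : E2) (i : Fin 2) : inner ℝ v (bas i) = v i := by
  unfold bas
  rw [EuclideanSpace.inner_single_right]
  simp

theorem bas_apply (i j : Fin 2) : (bas i) j = if j = i then 1 else 0 := by
  unfold bas
  simp [EuclideanSpace.single_apply]

/-- the projection `v ↦ v_i e_i` -/
def EE (i : Fin 2) : E2 →L[ℝ] E2 := (pr i).smulRight (bas i)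

theorem EE_apply (i : Fin 2) (v : E2) : EE i v = v i • bas i := rfl

theorem clm_eq_sum (A : E2 →L[ℝ] E2) :
    A = (pr 0).smulRight (A (bas 0)) + (pr 1).smulRight (A (bas 1)) := by
  ext v : 1
  have hx : v = v 0 • bas 0 + v 1 • bas 1 := by
    ext i; fin_cases i <;> simp [bas]
  conv_lhs => rw [hx, map_add, map_smul, map_smul]
  rfl

theorem SN_of_bas {A : E2 → E2 →L[ℝ] E2} (h0 : SN (fun z => A z (bas 0)))
    (h1 : SN (fun z => A z (bas 1))) : SN A := by
  have e : A = fun z => ContinuousLinearMap.smulRightL ℝ E2 E2 (pr 0) (A z (bas 0)) +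
      ContinuousLinearMap.smulRightL ℝ E2 E2 (pr 1) (A z (bas 1)) := by
    funext z; exact clm_eq_sum (A z)
  rw [e]
  exact (h0.lin (ContinuousLinearMap.smulRightL ℝ E2 E2 (pr 0))).add
    (h1.lin (ContinuousLinearMap.smulRightL ℝ E2 E2 (pr 1)))

theorem SN_of_coord {f : E2 → E2} (h : ∀ i, SN (fun z => f z i)) : SN f := by
  filter_upwards [h 0, h 1] with z h0 h1
  rw [contDiffAt_euclidean]
  intro i
  fin_cases i
  · exact h0
  · exact h1

theorem SN.coord {f : E2 → E2} (h : SN f) (i : Fin 2) : SN (fun z => f z i) := h.lin (pr i)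

theorem SN_coord_fun (i : Fin 2) : SN (fun z : E2 => z i) :=
  SN.of_contDiff (pr i).contDiff

theorem SN.smN {f : E2 → ℝ} (h : SN f) : H684.SmN f := by
  obtain ⟨r, hr, h⟩ := h.exists_on
  exact ⟨r, hr, h⟩

theorem SN.smNear {F : Type} [NormedAddCommGroup F] [NormedSpace ℝ F] {f : E2 → F} (h : SN f) :
    SmNear f := by
  obtain ⟨r, hr, h⟩ := h.exists_on
  exact ⟨r, hr, h⟩

theorem SN_of_smNear {F : Type} [NormedAddCommGroup F] [NormedSpace ℝ F] {f : E2 → F}
    (h : SmNear f) : SN f := by
  obtain ⟨r, hr, h⟩ := h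
  exact SN.of_on hr h

variable {L : Leaf Γ X B} {o : Orb L} (n : Nor L o)

theorem Mz_symm (T : Tens L) (z v w : E2) :
    inner ℝ (Mz T n z v) w = inner ℝ v (Mz T n z w) := by
  unfold Mz
  rw [conj_apply, conj_apply, ← ContinuousLinearMap.adjoint_inner_right, T.N_symm,
    ContinuousLinearMap.adjoint_inner_left]

theorem Mz_contAt (T : Tens L) : ∀ᶠ z in 𝓝 (0 : E2), ContinuousAt (Mz T n) z := by
  filter_upwards [ball_mem_nhds (0 : E2) (rad_pos n)] with z hz
  have h1 := psi_mem n hz
  have h2 : ContinuousAt (psi n) z := (psi_contDiffAt n hz).continuousAt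
  have h3 : ContinuousAt (T.N o.x) (psi n z) := by
    have h4 := T.N_cont (o.x, psi n z) ⟨mem_univ _, h1⟩
    have h5 : ContinuousAt (fun p : X × E2 => T.N p.1 p.2) (o.x, psi n z) :=
      h4.continuousAt ((isOpen_univ.prod isOpen_ball).mem_nhds ⟨mem_univ _, h1⟩)
    exact h5.comp (f := fun u : E2 => (o.x, u)) (by fun_prop)
  have h6 : ContinuousAt (fderiv ℝ n.g) (psi n z) :=
    ((g_contDiffAt n h1).fderiv_right (m := 0) (by simp)).continuousAt
  have h7 : ContinuousAt (fun z => fderiv ℝ n.g (psi n z)) z := h6.comp h2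
  have h8 : ContinuousAt (fun z => T.N o.x (psi n z)) z := h3.comp h2
  have h9 : ContinuousAt (fun z => ContinuousLinearMap.adjoint (fderiv ℝ n.g (psi n z))) z :=
    (adjL.continuous.continuousAt).comp h7
  exact h7.clm_comp (h8.clm_comp h9)

/-- the division lemma (proved elsewhere) -/
def DivLemma : Prop := ∀ (u : E2 → ℝ) (i : Fin 2) (m : ℕ), (∀ᶠ z in 𝓝 (0 : E2), ContinuousAt u z) →
  SN (fun z => z i ^ m * u z) → SN u

theorem gradient_pow (i : Fin 2) (m : ℕ) (z : E2) :
    gradient (fun z : E2 => z i ^ (m + 1)) z = ((m + 1 : ℕ) * z i ^ m : ℝ) • bas i := by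
  refine ext_inner_right ℝ fun v => ?_
  rw [gradient_inner, real_inner_smul_left, real_inner_comm, inner_bas]
  have h1 : HasFDerivAt (fun z : E2 => z i) (pr i) z := (pr i).hasFDerivAt
  have h2 := h1.pow (m + 1)
  have h3 : fderiv ℝ (fun z : E2 => z i ^ (m + 1)) z = _ := h2.fderiv
  rw [h3]
  simp [pr]

/-- the local form, in the normal coordinate -/
def LocZ (T : Tens L) {o : Orb L} (n : Nor L o) (i : Fin 2) : Prop :=
  ∃ b : ℝ → ℝ, Continuous b ∧ SN (fun z => Mz T n z - b (z i) • EE (1 - i))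

theorem link_SN {T : Tens L} {n : Nor L o} (D : DivIn T n) :
    SN (fun z => D.Tp z - Mz T n z) := by
  refine ((SN_of_smNear D.link).comp (psi_SN n) (psi_zero n)).congr ?_
  filter_upwards [ball_mem_nhds (0 : E2) (rad_pos n)] with z hz
  rw [g_psi n hz]; rfl

theorem wdiv {T : Tens L} {n : Nor L o} (D : DivIn T n) (j : Fin 2) :
    H684.WDiv D.r (fun y => D.Tp y (bas 0) j) (fun y => D.Tp y (bas 1) j) (fun y => D.Xp y j) := by
  intro f hf hc hs
  have key := D.div f hf hc hs (bas j)
  have e1 : (∫ y, inner ℝ (D.Tp y (gradient f y)) (bas j))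
      = ∫ y, (fderiv ℝ f y H684.b0 * D.Tp y (bas 0) j + fderiv ℝ f y H684.b1 *
        D.Tp y (bas 1) j) := by
    refine integral_congr_ae (Eventually.of_forall fun y => ?_)
    simp only
    rw [H684.gradient_eq_sum, map_add, map_smul, map_smul, inner_add_left, real_inner_smul_left,
      real_inner_smul_left, inner_bas, inner_bas]
    rfl
  have e2 : (∫ y, f y * inner ℝ (D.Xp y) (bas j)) = ∫ y, f y * D.Xp y j := by
    refine integral_congr_ae (Eventually.of_forall fun y => ?_)
    simp only
    rw [inner_bas]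
  rw [← e1, key, e2]

/-- **The core**: `E^s(dx_i^{m+1}, ·)` smooth implies the local form. -/
theorem locZ_of_dir (hdl : DivLemma) {T : Tens L} {n : Nor L o} (D : DivIn T n) {μ₁ μ₂ a : ℝ}
    {k : ℕ} (hN : n.N = .tri μ₁ μ₂ a k) (i : Fin 2) (hi : i = 0 → n.N.Split) (m : ℕ)
    (h : SN (fun z => Mz T n z (gradient (fun z : E2 => z i ^ (m + 1)) z))) : LocZ T n i := by
  -- `M e_i` is smooth
  have hMi : SN (fun z => Mz T n z (bas i)) := by
    refine SN_of_coord fun j => hdl _ i m ?_ ?_
    · filter_upwards [Mz_contAt n T] with z hz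
      have h1 : ContinuousAt (fun z => Mz T n z (bas i)) z := hz.clm_apply continuousAt_const
      exact (pr j).continuous.continuousAt.comp h1
    · have h1 := (h.coord j).lin ((((m : ℝ) + 1)⁻¹) • (1 : ℝ →L[ℝ] ℝ))
      refine h1.congr (Eventually.of_forall fun z => ?_)
      rw [gradient_pow]
      have hm : ((m : ℝ) + 1) ≠ 0 := by positivity
      simp only [map_smul, PiLp.smul_apply, smul_eq_mul, ContinuousLinearMap.smul_apply,
        ContinuousLinearMap.one_apply]
      push_cast
      field_simp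
  have hTi : SN (fun z => D.Tp z (bas i)) := by
    have h1 := (link_SN D).clm (SN.of_contDiff (contDiff_const (c := bas i)))
    refine (h1.add hMi).congr (Eventually.of_forall fun z => ?_)
    simp
  have hsymm : ∀ᶠ z in 𝓝 (0 : E2), ∀ j l, D.Tp z (bas j) l = D.Tp z (bas l) j := by
    filter_upwards [ball_mem_nhds (0 : E2) D.r_pos] with z hz j l
    have := D.Tp_symm z hz (bas j) (bas l)
    rw [inner_bas, real_inner_comm, inner_bas] at this
    exact this
  have hcont : ∀ j l, ContinuousOn (fun z => D.Tp z (bas j) l) (ball 0 D.r) := by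
    intro j l
    have h1 : ContinuousOn (fun z => D.Tp z (bas j)) (ball 0 D.r) :=
      D.Tp_cont.clm_apply continuousOn_const
    exact (pr l).continuous.comp_continuousOn h1
  -- the remaining entry
  obtain ⟨b, hb, hTb⟩ : ∃ b : ℝ → ℝ, Continuous b ∧
      SN (fun z => D.Tp z (bas (1 - i)) (1 - i) - b (z i)) := by
    fin_cases i
    · -- type S
      have hsp : n.N.Split := hi rfl
      have s12 : H684.SmN (fun z => D.Tp z (bas 0) 1) := (hTi.coord 1).smN
      have sx : H684.SmN (fun z => D.Xp z 1) := D.R0 hsp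
      obtain ⟨d, hd, b, hb, Q, hQ, hy⟩ :=
        H684.typeS D.r_pos (hcont 1 1) (wdiv D 1) s12 sx
      refine ⟨b, hb, (SN.of_on hd hQ).congr ?_⟩
      filter_upwards [ball_mem_nhds (0 : E2) hd] with z hz
      have h1 : D.Tp z (bas 1) 1 = b (z 0) + Q z := hy z hz
      show D.Tp z (bas (1 - 0)) (1 - 0) - b (z 0) = Q z
      rw [show (1 - 0 : Fin 2) = 1 from rfl, h1]; ring
    · -- types F and E
      have s12 : H684.SmN (fun z => D.Tp z (bas 1) 0) := (hTi.coord 0).smN
      have sx : H684.SmN (fun z => D.Xp z 0) := by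
        by_cases hsp : n.N.Split
        · exact D.R2 hsp (hTi.coord 1).smNear
        · have h1 := SN_of_smNear (D.R0' ⟨μ₁, μ₂, a, k, hN⟩ hsp)
          exact (h1.coord 0).smN
      obtain ⟨d, hd, b, hb, Q, hQ, hy⟩ :=
        H684.typeF D.r_pos (hcont 0 0) (wdiv D 0) s12 sx
      refine ⟨b, hb, (SN.of_on hd hQ).congr ?_⟩
      filter_upwards [ball_mem_nhds (0 : E2) hd] with z hz
      have h1 : D.Tp z (bas 0) 0 = b (z 1) + Q z := hy z hz
      show D.Tp z (bas (1 - 1)) (1 - 1) - b (z 1) = Q z
      rw [show (1 - 1 : Fin 2) = 0 from rfl, h1]; ring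
  refine ⟨b, hb, ?_⟩
  have hii : (1 - i : Fin 2) ≠ i := by fin_cases i <;> decide
  -- values on the two basis vectors
  have hlink : ∀ j, SN (fun z => D.Tp z (bas j) - Mz T n z (bas j)) := by
    intro j
    have h1 := (link_SN D).clm (SN.of_contDiff (contDiff_const (c := bas j)))
    refine h1.congr (Eventually.of_forall fun z => ?_)
    simp
  have hval1 : SN (fun z => (Mz T n z - b (z i) • EE (1 - i)) (bas i)) := by
    refine hMi.congr (Eventually.of_forall fun z => ?_)
    simp only [ContinuousLinearMap.sub_apply, ContinuousLinearMap.smul_apply, EE_apply,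
      bas_apply, if_neg hii, zero_smul, smul_zero, sub_zero]
  have hval2 : SN (fun z => (Mz T n z - b (z i) • EE (1 - i)) (bas (1 - i))) := by
    refine SN_of_coord fun j => ?_
    have hj : j = i ∨ j = 1 - i := by fin_cases i <;> fin_cases j <;> simp
    rcases hj with rfl | rfl
    · have h1 := ((hlink (1 - j)).coord j)
      refine ((hTi.coord (1 - j)).sub h1).congr ?_
      filter_upwards [hsymm] with z hz
      have h2 := hz (1 - j) j
      simp only [ContinuousLinearMap.sub_apply, ContinuousLinearMap.smul_apply, EE_apply,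
        PiLp.sub_apply, PiLp.smul_apply, bas_apply, smul_eq_mul, if_neg hii.symm, mul_zero,
        sub_zero]
      rw [h2]; ring
    · have h1 := ((hlink (1 - i)).coord (1 - i))
      refine (hTb.sub h1).congr (Eventually.of_forall fun z => ?_)
      simp only [ContinuousLinearMap.sub_apply, ContinuousLinearMap.smul_apply, EE_apply,
        PiLp.sub_apply, PiLp.smul_apply, bas_apply, smul_eq_mul, if_true, mul_one]
      ring
  rcases (by fin_cases i <;> simp : i = 0 ∨ i = 1) with rfl | rfl
  · exact SN_of_bas hval1 hval2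
  · exact SN_of_bas hval2 hval1

end Vale.Agent.P207.N3.H503
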