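import Vale.Agent.P207.N3.Top.Orb
import Vale.Agent.P207.N3.H147.Axis

/-!
# P207, line N3 (P4b, E3): the axes of `k β^m`
-/

open Set Filter Topology Metric MeasureTheory
open scoped ContDiff

noncomputable section

namespace Vale.Agent.P207.N3.H503

variable {Γ X B : Type} [Group Γ] [MetricSpace X] [ProperSpace X] [MulAction Γ X]
  [IsIsometricSMul Γ X] [TopologicalSpace B] [CompactSpace B] [T2Space B] [MulAction Γ B]
  [ContinuousConstSMul Γ B]

variable {L : Leaf Γ X B}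

/-- a point different from two given points, one of them the end of the leaf -/
theorem exists_third (x : X) (p : B) : ∃ q, q ≠ p ∧ q ≠ L.em x := by
  have h0 : (0 : E2) ∈ closedBall (0 : E2) 3 := mem_closedBall_self (by norm_num)
  have h1 : (EuclideanSpace.single 0 1 : E2) ∈ closedBall (0 : E2) 3 := by
    rw [mem_closedBall_zero_iff, EuclideanSpace.norm_single]; norm_num
  have hne : (0 : E2) ≠ EuclideanSpace.single 0 1 := by
    intro h
    have := congrArg (fun v : E2 => v 0) h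
    simp at this
  have h2 : L.e x 0 ≠ L.e x (EuclideanSpace.single 0 1) := fun h => hne (L.e_inj x h0 h1 h)
  by_cases h3 : L.e x 0 = p
  · exact ⟨_, fun h4 => h2 (h3.trans h4.symm), L.e_ne x _ h1⟩
  · exact ⟨_, h3, L.e_ne x _ h0⟩

/-- the end points of an axis of `θ`, when `θ` maps the complement of `V` into `F` -/
theorem ends_of_maps {θ : Γ} {z : X} {l : ℝ} {a : O2} (h : L.IsAxis θ z l a) {F V : Set B}
    (hF : IsClosed F) (hFV : Disjoint F V) (hm : ∀ p, p ∉ V → θ • p ∈ F) {p p' q : B}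
    (hp : p ∉ V) (hp' : p' ∉ V) (hpp : p ≠ p') (hq : q ∉ F) :
    L.ep z ∈ F ∧ L.em z ∈ closure V := by
  have key : ∀ r, r ∉ V → r ≠ L.em z → L.ep z ∈ F := by
    intro r hr hrz
    have hit : ∀ n : ℕ, θ ^ (n + 1) • r ∈ F := by
      intro n
      induction n with
      | zero => rw [zero_add, pow_one]; exact hm r hr
      | succ n ih =>
        rw [pow_succ', mul_smul]
        exact hm _ (fun hv => hFV.le_bot ⟨ih, hv⟩)
    by_contra hc
    have hn : Fᶜ ∈ 𝓝 (L.ep z) := hF.isOpen_compl.mem_nhds hc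
    have h1 := H147.Ax.north h (K := {r}) isCompact_singleton (by
      rintro h2; exact hrz (mem_singleton_iff.1 h2).symm) hn
    obtain ⟨m, hm1⟩ := h1.exists_forall_of_atTop
    exact hm1 (m + 1) (Nat.le_succ m) r rfl (hit m)
  have hep : L.ep z ∈ F := by
    by_cases h1 : p = L.em z
    · exact key p' hp' (fun h2 => hpp (h1.trans h2.symm))
    · exact key p hp h1
  refine ⟨hep, ?_⟩
  have hinv : ∀ r, r ∉ F → θ⁻¹ • r ∈ V := by
    intro r hr
    by_contra hc
    have := hm _ hc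
    rw [smul_inv_smul] at this
    exact hr this
  have hit : ∀ n : ℕ, (θ ^ (n + 1))⁻¹ • q ∈ V := by
    intro n
    induction n with
    | zero => rw [zero_add, pow_one]; exact hinv q hq
    | succ n ih =>
      rw [pow_succ, mul_inv_rev, mul_smul]
      exact hinv _ (fun hv => hFV.le_bot ⟨hv, ih⟩)
  rw [mem_closure_iff_nhds]
  intro W hW
  have h1 := H147.Ax.south h (K := {q}) isCompact_singleton (by
    rintro h2
    rw [mem_singleton_iff] at h2
    exact hq (h2 ▸ hep)) hW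
  obtain ⟨m, hm1⟩ := h1.exists_forall_of_atTop
  exact ⟨_, hm1 (m + 1) (Nat.le_succ m) q rfl, hit m⟩

/-- **(C1)** the axes of `k β^m` -/
theorem exists_axis_seq (o : Orb L) (k : Γ) (hk : k • o.pos ≠ o.neg) :
    ∃ (z : ℕ → X) (lz : ℕ → ℝ) (az : ℕ → O2),
      (∀ᶠ m in atTop, L.IsAxis (k * o.β ^ m) (z m) (lz m) (az m)) ∧
      Tendsto (fun m => L.em (z m)) atTop (𝓝 o.neg) ∧
      Tendsto (fun m => L.ep (z m)) atTop (𝓝 (k • o.pos)) ∧
      Tendsto (fun m => lz m - m * o.l) atTop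
        (𝓝 (L.lv (L.hol o.neg (k • o.x)) - L.lv o.x)) := by
  classical
  obtain ⟨κ', hκ1, hκ2⟩ := exists_third (L := L) o.x (k • o.pos)
  obtain ⟨Up, Um, hUp, hUm, hκUp, hnUm, hd⟩ := t2_separation hk
  -- the dynamics of `k β^m`
  have hdyn : ∀ Wp ∈ 𝓝 (k • o.pos), ∀ Wm ∈ 𝓝 o.neg, ∃ F V : Set B, IsClosed F ∧ Disjoint F V ∧
      F ⊆ Wp ∧ closure V ⊆ Wm ∧ k • o.pos ∉ V ∧ κ' ∉ V ∧ κ' ∉ F ∧ o.neg ∉ F ∧
      ∀ᶠ m : ℕ in atTop, ∀ p, p ∉ V → (k * o.β ^ m) • p ∈ F := by
    intro Wp hWp Wm hWm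
    obtain ⟨F, hF, hFc, hFs⟩ := exists_mem_nhds_isClosed_subset (inter_mem hWp
      (inter_mem (hUp.mem_nhds hκUp) (isOpen_compl_singleton.mem_nhds
        (show k • o.pos ∈ ({κ'}ᶜ : Set B) from fun h => hκ1 (mem_singleton_iff.1 h).symm))))
    obtain ⟨C, hC, hCc, hCs⟩ := exists_mem_nhds_isClosed_subset (inter_mem hWm
      (inter_mem (hUm.mem_nhds hnUm) (isOpen_compl_singleton.mem_nhds
        (show o.neg ∈ ({κ'}ᶜ : Set B) from fun h => hκ2 (mem_singleton_iff.1 h).symm))))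
    have hdis : Disjoint F (interior C) :=
      hd.mono (fun p hp => (hFs hp).2.1) (fun p hp => (hCs (interior_subset hp)).2.1)
    have hnV : o.neg ∈ interior C := mem_interior_iff_mem_nhds.2 hC
    refine ⟨F, interior C, hFc, hdis, fun p hp => (hFs hp).1,
      (closure_minimal interior_subset hCc).trans (fun p hp => (hCs hp).1), ?_, ?_, ?_, ?_, ?_⟩
    · intro h
      exact hd.le_bot ⟨hκUp, (hCs (interior_subset h)).2.1⟩
    · intro h
      exact (hCs (interior_subset h)).2.2 rfl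
    · intro h
      exact (hFs h).2.2 rfl
    · intro h
      exact hd.le_bot ⟨(hFs h).2.1, hnUm⟩
    · have hK : IsCompact ((interior C)ᶜ) := isOpen_interior.isClosed_compl.isCompact
      have hpre : (fun p : B => k • p) ⁻¹' F ∈ 𝓝 (L.ep o.x) :=
        (continuous_const_smul k).continuousAt hF
      filter_upwards [H147.Ax.north o.ax hK (fun h => h hnV) hpre] with m hm p hp
      rw [mul_smul]
      exact hm p hp
  -- nontrivial for large `m`
  have hne : ∀ᶠ m : ℕ in atTop, k * o.β ^ m ≠ 1 := by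
    obtain ⟨F, V, -, -, -, -, -, h6, h7, -, h9⟩ := hdyn univ univ_mem univ univ_mem
    filter_upwards [h9] with m hm h1
    have := hm κ' h6
    rw [h1, one_smul] at this
    exact h7 this
  -- the choice of the axes
  have hch : ∀ m : ℕ, ∃ (x : X) (l : ℝ) (a : O2), k * o.β ^ m ≠ 1 →
      L.IsAxis (k * o.β ^ m) x l a := by
    intro m
    by_cases h1 : k * o.β ^ m = 1
    · exact ⟨o.x, 0, 1, fun h => absurd h1 h⟩
    · obtain ⟨x, l, a, h2, h3⟩ := L.exists_axis _ h1
      exact ⟨x, l, a, fun _ => ⟨h2, h3⟩⟩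
  choose z lz az hz using hch
  have hax : ∀ᶠ m in atTop, L.IsAxis (k * o.β ^ m) (z m) (lz m) (az m) := by
    filter_upwards [hne] with m hm using hz m hm
  have hends : ∀ Wp ∈ 𝓝 (k • o.pos), ∀ Wm ∈ 𝓝 o.neg, ∀ᶠ m in atTop,
      L.ep (z m) ∈ Wp ∧ L.em (z m) ∈ Wm := by
    intro Wp hWp Wm hWm
    obtain ⟨F, V, h1, h2, h3, h4, h5, h6, -, h8, h9⟩ := hdyn Wp hWp Wm hWm
    filter_upwards [h9, hax] with m hm ha
    have h10 := ends_of_maps ha h1 h2 hm h5 h6 hκ1.symm h8
    exact ⟨h3 h10.1, h4 h10.2⟩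
  have hem : Tendsto (fun m => L.em (z m)) atTop (𝓝 o.neg) := by
    rw [tendsto_def]
    intro W hW
    filter_upwards [hends univ univ_mem W hW] with m hm using hm.2
  have hep : Tendsto (fun m => L.ep (z m)) atTop (𝓝 (k • o.pos)) := by
    rw [tendsto_def]
    intro W hW
    filter_upwards [hends W hW univ univ_mem] with m hm using hm.1
  refine ⟨z, lz, az, hax, hem, hep, ?_⟩
  -- the periods
  have hn1 : o.neg ≠ L.ep o.x := L.em_ne_ep o.x
  have hn2 : o.neg ≠ L.ep (k • o.x) := by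
    rw [H147.ep_smul]; exact hk.symm
  have hopen : IsOpen {p : B × X | p.1 ≠ L.ep p.2} := by
    have : {p : B × X | p.1 ≠ L.ep p.2} = {p : B × X | p.1 = L.ep p.2}ᶜ := rfl
    rw [this]
    exact (isClosed_eq continuous_fst ((H147.ep_cont L).comp continuous_snd)).isOpen_compl
  have hlim : ∀ y : X, o.neg ≠ L.ep y →
      Tendsto (fun m => L.lv (L.hol (L.em (z m)) y)) atTop (𝓝 (L.lv (L.hol o.neg y))) := by
    intro y hy
    have h1 : ContinuousAt (fun p : B × X => L.hol p.1 p.2) (o.neg, y) :=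
      L.hol_cont.continuousAt (hopen.mem_nhds hy)
    have h2 : Tendsto (fun m => (L.em (z m), y)) atTop (𝓝 (o.neg, y)) :=
      hem.prodMk_nhds tendsto_const_nhds
    exact (L.lv_cont.continuousAt.tendsto.comp (h1.tendsto.comp h2))
  have h3 := (hlim _ hn2).sub (hlim _ hn1)
  have h4 : L.hol o.neg o.x = o.x := L.hol_self o.x
  rw [h4] at h3
  refine h3.congr' ?_
  have e1 : ∀ᶠ m in atTop, L.em (z m) ≠ L.ep o.x :=
    hem.eventually (isOpen_compl_singleton.mem_nhds hn1)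
  have e2 : ∀ᶠ m in atTop, L.em (z m) ≠ L.ep (k • o.x) :=
    hem.eventually (isOpen_compl_singleton.mem_nhds hn2)
  filter_upwards [hax, e1, e2] with m ha h5 h6
  have hfix : (k * o.β ^ m) • L.em (z m) = L.em (z m) := H147.Ax.smul_em ha
  have hξ : o.β ^ m • L.em (z m) = k⁻¹ • L.em (z m) := by
    rw [eq_inv_smul_iff, ← mul_smul]; exact hfix
  have hne1 : k⁻¹ • L.em (z m) ≠ L.ep o.x := by
    intro h
    apply h6
    rw [H147.ep_smul, ← h, smul_inv_smul]
  have h7 : L.lv ((k * o.β ^ m) • L.hol (L.em (z m)) o.x) = L.lv (L.hol (L.em (z m)) o.x) + lz m :=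
    H147.Ax.lv_smul ha (L.hol_em _ _ h5)
  have h8 : (k * o.β ^ m) • L.hol (L.em (z m)) o.x =
      L.φ (m * o.l) (L.rot (o.a ^ m) (L.hol (L.em (z m)) (k • o.x))) := by
    rw [mul_smul, ← L.hol_smul _ _ _ h5, hξ, H147.Ax.pow_smul o.ax]
    have h9 : k⁻¹ • L.em (z m) ≠ L.ep (L.rot (o.a ^ m) o.x) := by rwa [H147.ep_rot]
    rw [L.hol_φ _ _ _ h9, L.hol_rot _ _ _ hne1, ← L.φ_smul, ← L.rot_smul,
      ← L.hol_smul _ _ _ hne1, smul_inv_smul]
  rw [h8, L.lv_φ, L.lv_rot] at h7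
  linarith

end Vale.Agent.P207.N3.H503
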