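import Mathlib

/-!
# P207, N3-P13T (types of closed orbits): bootstrapping at a hyperbolic fixed point

`Z z = A z (Z (G z)) + S z` near the fixed point `0` of the contraction `G`, with smooth `A`, `S`,
`G`, and `Z` of class `C^K` with `‖A 0‖ ‖DG 0‖^K < 1`: then `Z` is smooth.
-/

open Set Filter Topology Metric
open scoped ContDiff

noncomputable section

namespace Vale.Agent.P207.N3.H503

section Boot

variable {E F : Type} [NormedAddCommGroup E] [NormedSpace ℝ E] [NormedAddCommGroup F]
  [NormedSpace ℝ F]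

/-- The approximations of the solution of `Z z = A z (Z (G z)) + S z`. -/
def itZ (G : E → E) (A : E → F →L[ℝ] F) (S : E → F) : ℕ → E → F
  | 0 => fun _ => 0
  | n + 1 => fun z => A z (itZ G A S n (G z)) + S z

theorem boot_zero [CompleteSpace F] {G : E → E} {A : E → F →L[ℝ] F} {S Z : E → F}
    (hG : ContDiffAt ℝ 1 G 0) (hG0 : G 0 = 0) (hG1 : ‖fderiv ℝ G 0‖ < 1)
    (hA : ContDiffAt ℝ 1 A 0) (hA1 : ‖A 0‖ < 1) (hS : ContDiffAt ℝ 1 S 0)
    (hZ : ContDiffAt ℝ 0 Z 0) (h : ∀ᶠ z in 𝓝 (0 : E), Z z = A z (Z (G z)) + S z) :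
    ContDiffAt ℝ 1 Z 0 := by
  -- constants
  obtain ⟨θ, hθ1, hθ⟩ := exists_between hG1
  obtain ⟨a, ha1, ha⟩ := exists_between hA1
  have ha0 : 0 ≤ a := (norm_nonneg _).trans ha1.le
  have hθ0 : 0 ≤ θ := (norm_nonneg _).trans hθ1.le
  have evG := hG.eventually (by simp)
  have evA := hA.eventually (by simp)
  have evS := hS.eventually (by simp)
  have cfG : ContinuousAt (fderiv ℝ G) 0 := (hG.fderiv_right (m := 0) (by norm_num)).continuousAt
  have cfA : ContinuousAt (fderiv ℝ A) 0 := (hA.fderiv_right (m := 0) (by norm_num)).continuousAt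
  have cfS : ContinuousAt (fderiv ℝ S) 0 := (hS.fderiv_right (m := 0) (by norm_num)).continuousAt
  set C : ℝ := 1 + ‖S 0‖ + ‖fderiv ℝ S 0‖ + ‖fderiv ℝ A 0‖ + ‖Z 0‖ with hC
  have hCs : ‖S 0‖ < C := by
    have := norm_nonneg (fderiv ℝ S 0); have := norm_nonneg (fderiv ℝ A 0)
    have := norm_nonneg (Z 0); linarith
  have hCs' : ‖fderiv ℝ S 0‖ < C := by
    have := norm_nonneg (S 0); have := norm_nonneg (fderiv ℝ A 0)
    have := norm_nonneg (Z 0); linarith
  have hCa : ‖fderiv ℝ A 0‖ < C := by
    have := norm_nonneg (fderiv ℝ S 0); have := norm_nonneg (S 0)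
    have := norm_nonneg (Z 0); linarith
  have hCz : ‖Z 0‖ < C := by
    have := norm_nonneg (fderiv ℝ S 0); have := norm_nonneg (fderiv ℝ A 0)
    have := norm_nonneg (S 0); linarith
  have hC0 : 0 < C := (norm_nonneg _).trans_lt hCz
  have e1 : ∀ᶠ z in 𝓝 (0 : E), ‖fderiv ℝ G z‖ < θ := cfG.norm.eventually_lt_const hθ1
  have e2 : ∀ᶠ z in 𝓝 (0 : E), ‖A z‖ < a := hA.continuousAt.norm.eventually_lt_const ha1
  have e3 : ∀ᶠ z in 𝓝 (0 : E), ‖S z‖ < C := hS.continuousAt.norm.eventually_lt_const hCs
  have e4 : ∀ᶠ z in 𝓝 (0 : E), ‖fderiv ℝ S z‖ < C := cfS.norm.eventually_lt_const hCs'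
  have e5 : ∀ᶠ z in 𝓝 (0 : E), ‖fderiv ℝ A z‖ < C :=
    ((continuous_norm.tendsto (fderiv ℝ A 0)).comp cfA.tendsto).eventually_lt_const hCa
  have e6 : ∀ᶠ z in 𝓝 (0 : E), ‖Z z‖ < C := hZ.continuousAt.norm.eventually_lt_const hCz
  obtain ⟨r, hr, hall⟩ := Metric.eventually_nhds_iff_ball.1 (evG.and <| evA.and <| evS.and <|
    e1.and <| e2.and <| e3.and <| e4.and <| e5.and <| e6.and h)
  have mapG : ∀ z ∈ ball (0 : E) r, G z ∈ ball (0 : E) r := by
    intro z hz
    have := (convex_ball (0 : E) r).norm_image_sub_le_of_norm_fderiv_le (𝕜 := ℝ) (f := G) (C := θ)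
      (fun x hx => ((hall x hx).1.differentiableAt (by simp)))
      (fun x hx => (hall x hx).2.2.2.1.le) (mem_ball_self hr) hz
    rw [hG0, sub_zero, sub_zero] at this
    rw [mem_ball_zero_iff] at hz ⊢
    calc ‖G z‖ ≤ θ * ‖z‖ := this
      _ ≤ 1 * ‖z‖ := by gcongr
      _ < r := by simpa using hz
  -- the approximations
  have cd : ∀ n, ∀ z ∈ ball (0 : E) r, ContDiffAt ℝ 1 (itZ G A S n) z := by
    intro n
    induction n with
    | zero => intro z _; exact contDiffAt_const
    | succ n ih =>
      intro z hz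
      have h1 := (ih (G z) (mapG z hz)).comp z (hall z hz).1
      exact ((hall z hz).2.1.clm_apply h1).add (hall z hz).2.2.1
  have dr : ∀ n, ∀ z ∈ ball (0 : E) r, fderiv ℝ (itZ G A S (n + 1)) z =
      (A z).comp ((fderiv ℝ (itZ G A S n) (G z)).comp (fderiv ℝ G z)) +
        (fderiv ℝ A z).flip (itZ G A S n (G z)) + fderiv ℝ S z := by
    intro n z hz
    have h1 := (((cd n (G z) (mapG z hz)).differentiableAt (by simp)).hasFDerivAt).comp z
      ((hall z hz).1.differentiableAt (by simp)).hasFDerivAt
    have h2 := (((hall z hz).2.1.differentiableAt (by simp)).hasFDerivAt).clm_apply h1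
    have h3 := h2.add ((hall z hz).2.2.1.differentiableAt (by simp)).hasFDerivAt
    exact h3.fderiv
  have dz : ∀ n, ∀ z ∈ ball (0 : E) r, ‖itZ G A S (n + 1) z - itZ G A S n z‖ ≤ C * a ^ n := by
    intro n
    induction n with
    | zero =>
      intro z hz
      simp only [itZ, map_zero, zero_add, sub_zero, pow_zero, mul_one]
      exact (hall z hz).2.2.2.2.2.1.le
    | succ n ih =>
      intro z hz
      have : itZ G A S (n + 1 + 1) z - itZ G A S (n + 1) z =
          A z (itZ G A S (n + 1) (G z) - itZ G A S n (G z)) := by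
        rw [map_sub]; simp only [itZ]; abel
      rw [this]
      calc _ ≤ ‖A z‖ * ‖itZ G A S (n + 1) (G z) - itZ G A S n (G z)‖ :=
            (A z).le_opNorm _
        _ ≤ a * (C * a ^ n) := by
            gcongr
            · exact (hall z hz).2.2.2.2.1.le
            · exact ih _ (mapG z hz)
        _ = C * a ^ (n + 1) := by ring
  set b : ℝ := (1 + a) / 2 with hb
  have hab : a < b := by rw [hb]; linarith
  have hb1 : b < 1 := by rw [hb]; linarith
  have hb0 : 0 ≤ b := ha0.trans hab.le
  set C2 : ℝ := C + C * C / (b - a) with hC2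
  have hC20 : C * C ≤ C2 * (b - a) := by
    have : (C + C * C / (b - a)) * (b - a) = C * (b - a) + C * C := by
      field_simp [(sub_pos.2 hab).ne']
    rw [hC2, this]
    nlinarith [mul_pos hC0 (sub_pos.2 hab)]
  have hC2C : C ≤ C2 := by
    rw [hC2]
    have : 0 ≤ C * C / (b - a) := div_nonneg (mul_nonneg hC0.le hC0.le) (sub_pos.2 hab).le
    linarith
  have dd : ∀ n, ∀ z ∈ ball (0 : E) r,
      ‖fderiv ℝ (itZ G A S (n + 1)) z - fderiv ℝ (itZ G A S n) z‖ ≤ C2 * b ^ n := by
    intro n
    induction n with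
    | zero =>
      intro z hz
      rw [dr 0 z hz]
      have h0 : ∀ w, fderiv ℝ (itZ G A S 0) w = 0 := fun w => fderiv_const_apply _
      have h00 : itZ G A S 0 (G z) = 0 := rfl
      rw [h0, h0, h00]
      simp only [ContinuousLinearMap.zero_comp, ContinuousLinearMap.comp_zero, map_zero, zero_add,
        sub_zero, pow_zero, mul_one]
      exact (hall z hz).2.2.2.2.2.2.1.le.trans hC2C
    | succ n ih =>
      intro z hz
      have hGz := mapG z hz
      rw [dr (n + 1) z hz, dr n z hz]
      have : (A z).comp ((fderiv ℝ (itZ G A S (n + 1)) (G z)).comp (fderiv ℝ G z)) +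
          (fderiv ℝ A z).flip (itZ G A S (n + 1) (G z)) + fderiv ℝ S z -
          ((A z).comp ((fderiv ℝ (itZ G A S n) (G z)).comp (fderiv ℝ G z)) +
          (fderiv ℝ A z).flip (itZ G A S n (G z)) + fderiv ℝ S z) =
          (A z).comp ((fderiv ℝ (itZ G A S (n + 1)) (G z) -
            fderiv ℝ (itZ G A S n) (G z)).comp (fderiv ℝ G z)) +
          (fderiv ℝ A z).flip (itZ G A S (n + 1) (G z) - itZ G A S n (G z)) := by
        rw [map_sub]
        ext v
        simp only [ContinuousLinearMap.add_apply, ContinuousLinearMap.sub_apply,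
          ContinuousLinearMap.comp_apply, ContinuousLinearMap.flip_apply, map_sub]
        abel
      rw [this]
      have hbn : a ^ n ≤ b ^ n := pow_le_pow_left₀ ha0 hab.le n
      calc _ ≤ ‖(A z).comp ((fderiv ℝ (itZ G A S (n + 1)) (G z) -
            fderiv ℝ (itZ G A S n) (G z)).comp (fderiv ℝ G z))‖ +
            ‖(fderiv ℝ A z).flip (itZ G A S (n + 1) (G z) - itZ G A S n (G z))‖ :=
            norm_add_le _ _
        _ ≤ a * (C2 * b ^ n * 1) + C * (C * a ^ n) := by
            gcongr
            · refine (ContinuousLinearMap.opNorm_comp_le _ _).trans ?_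
              gcongr
              · exact (hall z hz).2.2.2.2.1.le
              · refine (ContinuousLinearMap.opNorm_comp_le _ _).trans ?_
                gcongr
                · exact ih _ hGz
                · exact (hall z hz).2.2.2.1.le.trans hθ.le
            · refine (ContinuousLinearMap.le_opNorm _ _).trans ?_
              rw [ContinuousLinearMap.opNorm_flip]
              gcongr
              · exact (hall z hz).2.2.2.2.2.2.2.1.le
              · exact dz n _ hGz
        _ ≤ a * (C2 * b ^ n * 1) + C * (C * b ^ n) := by gcongr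
        _ = (a * C2 + C * C) * b ^ n := by ring
        _ ≤ (C2 * b) * b ^ n := by
            gcongr
            linarith
        _ = C2 * b ^ (n + 1) := by ring
  -- the limit
  have hsb : Summable fun n : ℕ => C2 * b ^ n := (summable_geometric_of_lt_one hb0 hb1).mul_left _
  have hsa : Summable fun n : ℕ => C * a ^ n := (summable_geometric_of_lt_one ha0 ha).mul_left _
  have lim : ∀ z ∈ ball (0 : E) r, HasSum (fun n => itZ G A S (n + 1) z - itZ G A S n z) (Z z) := by
    intro z hz
    have h1 : Summable (fun n => itZ G A S (n + 1) z - itZ G A S n z) :=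
      Summable.of_norm_bounded hsa (fun n => dz n z hz)
    have h2 : ∀ n, ∀ z ∈ ball (0 : E) r, ‖Z z - itZ G A S n z‖ ≤ C * a ^ n := by
      intro n
      induction n with
      | zero =>
        intro z hz
        simp only [itZ, sub_zero, pow_zero, mul_one]
        exact (hall z hz).2.2.2.2.2.2.2.2.1.le
      | succ n ih =>
        intro z hz
        have : Z z - itZ G A S (n + 1) z = A z (Z (G z) - itZ G A S n (G z)) := by
          rw [map_sub]
          conv_lhs => rw [(hall z hz).2.2.2.2.2.2.2.2.2]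
          simp only [itZ]; abel
        rw [this]
        calc _ ≤ ‖A z‖ * ‖Z (G z) - itZ G A S n (G z)‖ := (A z).le_opNorm _
          _ ≤ a * (C * a ^ n) := by
              gcongr
              · exact (hall z hz).2.2.2.2.1.le
              · exact ih _ (mapG z hz)
          _ = C * a ^ (n + 1) := by ring
    have h3 : Tendsto (fun n => itZ G A S n z) atTop (𝓝 (Z z)) := by
      rw [tendsto_iff_norm_sub_tendsto_zero]
      have h5 : Tendsto (fun n : ℕ => C * a ^ n) atTop (𝓝 0) := by
        simpa using (tendsto_pow_atTop_nhds_zero_of_lt_one ha0 ha).const_mul C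
      refine squeeze_zero (fun _ => norm_nonneg _) (fun n => ?_) h5
      rw [norm_sub_rev]; exact h2 n z hz
    refine (h1.hasSum_iff_tendsto_nat).2 ?_
    have h4 : (fun n => ∑ i ∈ Finset.range n, (itZ G A S (i + 1) z - itZ G A S i z)) =
        fun n => itZ G A S n z := by
      funext n
      rw [Finset.sum_range_sub (fun i => itZ G A S i z)]
      simp [itZ]
    rw [h4]; exact h3
  have hasd : ∀ z ∈ ball (0 : E) r, HasFDerivAt Z
      (∑' n, (fderiv ℝ (itZ G A S (n + 1)) z - fderiv ℝ (itZ G A S n) z)) z := by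
    intro z hz
    have h1 := hasFDerivAt_tsum_of_isPreconnected (f := fun n z =>
      itZ G A S (n + 1) z - itZ G A S n z) (f' := fun n z =>
      fderiv ℝ (itZ G A S (n + 1)) z - fderiv ℝ (itZ G A S n) z) hsb isOpen_ball
      (convex_ball (0 : E) r).isPreconnected
      (fun n x hx => ((cd (n + 1) x hx).differentiableAt (by simp)).hasFDerivAt.sub
        ((cd n x hx).differentiableAt (by simp)).hasFDerivAt)
      (fun n x hx => dd n x hx) hz (lim z hz).summable hz
    refine h1.congr_of_eventuallyEq ?_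
    filter_upwards [isOpen_ball.mem_nhds hz] with w hw
    exact (lim w hw).tsum_eq.symm
  rw [contDiffAt_one_iff]
  refine ⟨_, ball 0 r, ball_mem_nhds _ hr, ?_, hasd⟩
  refine continuousOn_tsum (fun n => ?_) hsb (fun n x hx => dd n x hx)
  intro z hz
  have h1 := ((cd (n + 1) z hz).fderiv_right (m := 0) (by norm_num)).continuousAt
  have h2 := ((cd n z hz).fderiv_right (m := 0) (by norm_num)).continuousAt
  exact (h1.sub h2).continuousWithinAt

end Boot

end Vale.Agent.P207.N3.H503
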