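import Vale.Agent.P207.N3.H503.Boot

/-!
# P207, N3-P13T: bootstrapping at a hyperbolic fixed point, all orders
-/

open Set Filter Topology Metric
open scoped ContDiff

noncomputable section

namespace Vale.Agent.P207.N3.H503

section Boot

variable {E : Type} [NormedAddCommGroup E] [NormedSpace ℝ E]

theorem boot_succ {G : E → E} (hG : ContDiffAt ℝ ∞ G 0) (hG0 : G 0 = 0)
    (hG1 : ‖fderiv ℝ G 0‖ < 1) : ∀ (K : ℕ) (F : Type) [NormedAddCommGroup F] [NormedSpace ℝ F]
    [CompleteSpace F] (A : E → F →L[ℝ] F) (S Z : E → F), ContDiffAt ℝ ∞ A 0 →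
    ‖A 0‖ * ‖fderiv ℝ G 0‖ ^ K < 1 → ContDiffAt ℝ (K + 1 : ℕ) S 0 → ContDiffAt ℝ K Z 0 →
    (∀ᶠ z in 𝓝 (0 : E), Z z = A z (Z (G z)) + S z) → ContDiffAt ℝ (K + 1 : ℕ) Z 0 := by
  intro K
  induction K with
  | zero =>
    intro F _ _ _ A S Z hA hA1 hS hZ h
    have := boot_zero (hG.of_le (by exact_mod_cast le_top)) hG0 hG1
      (hA.of_le (by exact_mod_cast le_top)) (by simpa using hA1) (by simpa using hS)
      (by simpa using hZ) h
    simpa using this
  | succ K ih =>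
    intro F _ _ _ A S Z hA hA1 hS hZ h
    set A1 : E → (E →L[ℝ] F) →L[ℝ] (E →L[ℝ] F) := fun z =>
      (ContinuousLinearMap.compL ℝ E F F (A z)).comp
        ((ContinuousLinearMap.compL ℝ E E F).flip (fderiv ℝ G z)) with hA1def
    set S1 : E → E →L[ℝ] F := fun z => (fderiv ℝ A z).flip (Z (G z)) + fderiv ℝ S z with hS1def
    have hA1s : ContDiffAt ℝ ∞ A1 0 := by
      have c1 : ContDiff ℝ ∞ (fun T : F →L[ℝ] F => ContinuousLinearMap.compL ℝ E F F T) := by
        fun_prop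
      have c2 : ContDiff ℝ ∞ (fun T : E →L[ℝ] E => (ContinuousLinearMap.compL ℝ E E F).flip T) := by
        fun_prop
      have h1 : ContDiffAt ℝ ∞ (fun z => ContinuousLinearMap.compL ℝ E F F (A z)) 0 :=
        c1.contDiffAt.comp 0 hA
      have h2 : ContDiffAt ℝ ∞ (fun z => (ContinuousLinearMap.compL ℝ E E F).flip
          (fderiv ℝ G z)) 0 :=
        c2.contDiffAt.comp 0 (hG.fderiv_right (m := ∞) (by simp))
      exact h1.clm_comp h2
    have hA1n : ‖A1 0‖ ≤ ‖A 0‖ * ‖fderiv ℝ G 0‖ := by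
      refine ContinuousLinearMap.opNorm_le_bound _ (by positivity) (fun T => ?_)
      simp only [hA1def, ContinuousLinearMap.comp_apply, ContinuousLinearMap.flip_apply,
        ContinuousLinearMap.compL_apply]
      calc _ ≤ ‖A 0‖ * ‖T.comp (fderiv ℝ G 0)‖ := ContinuousLinearMap.opNorm_comp_le _ _
        _ ≤ ‖A 0‖ * (‖T‖ * ‖fderiv ℝ G 0‖) := by
            gcongr; exact ContinuousLinearMap.opNorm_comp_le _ _
        _ = _ := by ring
    have hA1c : ‖A1 0‖ * ‖fderiv ℝ G 0‖ ^ K < 1 := by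
      calc _ ≤ ‖A 0‖ * ‖fderiv ℝ G 0‖ * ‖fderiv ℝ G 0‖ ^ K := by gcongr
        _ = ‖A 0‖ * ‖fderiv ℝ G 0‖ ^ (K + 1) := by ring
        _ < 1 := hA1
    have hZG : ContDiffAt ℝ (K + 1 : ℕ) (fun z => Z (G z)) 0 := by
      have : ContDiffAt ℝ (K + 1 : ℕ) Z (G 0) := by rw [hG0]; exact hZ
      exact this.comp 0 (hG.of_le (by exact_mod_cast le_top))
    have hS1s : ContDiffAt ℝ (K + 1 : ℕ) S1 0 := by
      have c3 : ContDiff ℝ (K + 1 : ℕ) (fun T : E →L[ℝ] F →L[ℝ] F =>
          ContinuousLinearMap.flipₗᵢ ℝ E F F T) := by fun_prop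
      have h1 : ContDiffAt ℝ (K + 1 : ℕ) (fun z : E => (ContinuousLinearMap.flipₗᵢ ℝ E F F
          (fderiv ℝ A z))) (0 : E) := by
        refine c3.contDiffAt.comp (0 : E) ?_
        exact (hA.fderiv_right (m := ∞) (by simp)).of_le (by exact_mod_cast le_top)
      have h2 : ContDiffAt ℝ (K + 1 : ℕ) (fderiv ℝ S) 0 :=
        hS.fderiv_right (by exact_mod_cast le_rfl)
      exact (h1.clm_apply hZG).add h2
    have hZ1 : ContDiffAt ℝ K (fderiv ℝ Z) 0 := hZ.fderiv_right (by exact_mod_cast le_rfl)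
    have evZ : ∀ᶠ z in 𝓝 (0 : E), DifferentiableAt ℝ Z z := by
      filter_upwards [hZ.eventually (by simp)] with z hz
      exact hz.differentiableAt (by simp)
    have evZG : ∀ᶠ z in 𝓝 (0 : E), DifferentiableAt ℝ Z (G z) := by
      have : Tendsto G (𝓝 0) (𝓝 0) := by
        have := hG.continuousAt.tendsto; rwa [hG0] at this
      exact this.eventually evZ
    have evG : ∀ᶠ z in 𝓝 (0 : E), DifferentiableAt ℝ G z := by
      filter_upwards [(hG.of_le (m := 1) (by exact_mod_cast le_top)).eventually (by simp)] with z hz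
      exact hz.differentiableAt (by simp)
    have evA : ∀ᶠ z in 𝓝 (0 : E), DifferentiableAt ℝ A z := by
      filter_upwards [(hA.of_le (m := 1) (by exact_mod_cast le_top)).eventually (by simp)] with z hz
      exact hz.differentiableAt (by simp)
    have evS : ∀ᶠ z in 𝓝 (0 : E), DifferentiableAt ℝ S z := by
      filter_upwards [(hS.of_le (m := 1) (by exact_mod_cast (by omega))).eventually (by simp)]
        with z hz
      exact hz.differentiableAt (by simp)
    have eq1 : ∀ᶠ z in 𝓝 (0 : E), fderiv ℝ Z z = A1 z (fderiv ℝ Z (G z)) + S1 z := by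
      filter_upwards [h.eventually_nhds, evZG, evG, evA, evS] with z hz h1 h2 h3 h4
      have h5 := h1.hasFDerivAt.comp z h2.hasFDerivAt
      have h6 := (h3.hasFDerivAt.clm_apply h5).add h4.hasFDerivAt
      have h7 : Z =ᶠ[𝓝 z] fun w => A w (Z (G w)) + S w := hz
      rw [h7.fderiv_eq]
      refine h6.fderiv.trans ?_
      simp only [hA1def, hS1def, ContinuousLinearMap.comp_apply, ContinuousLinearMap.flip_apply,
        ContinuousLinearMap.compL_apply]
      rw [add_assoc]; rfl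
    have key := ih (E →L[ℝ] F) A1 S1 (fderiv ℝ Z) hA1s hA1c hS1s hZ1 eq1
    rw [show ((K + 1 + 1 : ℕ) : WithTop ℕ∞) = ((K + 1 : ℕ) : WithTop ℕ∞) + 1 by push_cast; rfl]
    rw [contDiffAt_succ_iff_hasFDerivAt]
    refine ⟨fderiv ℝ Z, ?_, key⟩
    obtain ⟨u, hu, hu'⟩ := evZ.exists_mem
    exact ⟨u, hu, fun x hx => (hu' x hx).hasFDerivAt⟩

/-- **Bootstrapping**: a solution of class `C^K`, `‖A 0‖ ‖DG 0‖^K < 1`, is smooth at `0`. -/
theorem boot_all {G : E → E} (hG : ContDiffAt ℝ ∞ G 0) (hG0 : G 0 = 0)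
    (hG1 : ‖fderiv ℝ G 0‖ < 1) {F : Type} [NormedAddCommGroup F] [NormedSpace ℝ F]
    [CompleteSpace F] {A : E → F →L[ℝ] F} {S Z : E → F} (hA : ContDiffAt ℝ ∞ A 0) (K : ℕ)
    (hAK : ‖A 0‖ * ‖fderiv ℝ G 0‖ ^ K < 1) (hS : ContDiffAt ℝ ∞ S 0) (hZ : ContDiffAt ℝ K Z 0)
    (h : ∀ᶠ z in 𝓝 (0 : E), Z z = A z (Z (G z)) + S z) : ContDiffAt ℝ ∞ Z 0 := by
  have key : ∀ n : ℕ, ContDiffAt ℝ (K + n : ℕ) Z 0 := by
    intro n
    induction n with
    | zero => simpa using hZ
    | succ n ih =>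
      refine boot_succ hG hG0 hG1 (K + n) F A S Z hA ?_ (hS.of_le (by exact_mod_cast le_top)) ih h
      refine lt_of_le_of_lt ?_ hAK
      gcongr _ * ?_
      exact pow_le_pow_of_le_one (norm_nonneg _) hG1.le (by omega)
  rw [contDiffAt_infty]
  intro n
  exact (key n).of_le (by exact_mod_cast (by omega))

end Boot

end Vale.Agent.P207.N3.H503
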