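import Vale.Agent.P207.N3.H503.Chg
import Vale.Agent.P207.N3.H854.Dens

/-!
# P207, N3-P13T: non-real eigenvalues are excluded by roughness
-/

open Set Filter Topology Metric MeasureTheory
open scoped ContDiff

noncomputable section

namespace Vale.Agent.P207.N3.H503

open H790 (NF)
open H545

variable {Γ X B : Type} [Group Γ] [MetricSpace X] [ProperSpace X] [MulAction Γ X]
  [IsIsometricSMul Γ X] [TopologicalSpace B] [CompactSpace B] [T2Space B] [MulAction Γ B]
  [ContinuousConstSMul Γ B]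

variable {L : Leaf Γ X B} {o : Orb L} (n : Nor L o)

theorem conj_one (M : E2 →L[ℝ] E2) : conj 1 M = M := by
  ext v : 1
  rw [conj_apply]
  have h : ContinuousLinearMap.adjoint (1 : E2 →L[ℝ] E2) = 1 := by
    have := star_one (E2 →L[ℝ] E2)
    rwa [ContinuousLinearMap.star_eq_adjoint] at this
  rw [h]; rfl

theorem N_contDiffAt_of_Mz (T : Tens L) {k : ℕ} (h : ContDiffAt ℝ k (Mz T n) 0) :
    ContDiffAt ℝ k (T.N o.x) 0 := by
  have hu : IsUnit (fderiv ℝ n.g 0) := H854.isUnit_of_det _ (g_det n zero_mem3)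
  obtain ⟨U, hU⟩ := hu
  have h1 : ContDiffAt ℝ k (fderiv ℝ n.g) 0 :=
    (g_SN n).fderiv.self.of_le (by exact_mod_cast le_top)
  have h2 : ContDiffAt ℝ k (fun u => Ring.inverse (fderiv ℝ n.g u)) 0 := by
    have h3 : ContDiffAt ℝ k (Ring.inverse (M₀ := E2 →L[ℝ] E2)) (fderiv ℝ n.g 0) := by
      rw [← hU]; exact contDiffAt_ringInverse ℝ U
    exact h3.comp 0 h1
  have h4 : ContDiffAt ℝ k (fun u => Mz T n (n.g u)) 0 := by
    have h5 : ContDiffAt ℝ k (Mz T n) (n.g 0) := by rw [g_zero]; exact h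
    exact h5.comp 0 ((g_SN n).self.of_le (by exact_mod_cast le_top))
  refine (conj_contDiffAt h2 h4).congr_of_eventuallyEq ?_
  have e1 : ∀ᶠ u in 𝓝 (0 : E2), IsUnit (fderiv ℝ n.g u) := by
    have : {A : E2 →L[ℝ] E2 | IsUnit A} ∈ 𝓝 (fderiv ℝ n.g 0) :=
      Units.isOpen.mem_nhds ⟨U, hU⟩
    exact h1.continuousAt.eventually this
  filter_upwards [e1, (psi_spec n).2.2.2.2] with u h6 h7
  unfold Mz
  rw [h7, ← conj_comp]
  have h8 : (Ring.inverse (fderiv ℝ n.g u)).comp (fderiv ℝ n.g u) = 1 :=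
    Ring.inverse_mul_cancel _ h6
  rw [h8, conj_one]

theorem false_of_Mz (T : Tens L) {k₀ : ℕ} (hR : Rough T k₀) (h : ContDiffAt ℝ k₀ (Mz T n) 0) :
    False := by
  have h1 := N_contDiffAt_of_Mz n T h
  obtain ⟨ε, hε, hb⟩ := Metric.eventually_nhds_iff_ball.1 (h1.eventually (by simp))
  refine hR o.x (ball 0 (min ε 3)) isOpen_ball (ball_subset_ball (min_le_right _ _))
    ⟨0, mem_ball_self (lt_min hε (by norm_num))⟩ fun u hu => ?_
  exact (hb u (ball_subset_ball (min_le_left _ _) hu)).contDiffWithinAt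

theorem Mz_of_two (T : Tens L) {k : ℕ} {v w : E2} (hd : v 0 * w 1 - v 1 * w 0 ≠ 0)
    (hv : ContDiffAt ℝ k (fun z => Mz T n z v) 0) (hw : ContDiffAt ℝ k (fun z => Mz T n z w) 0) :
    ContDiffAt ℝ k (Mz T n) 0 := by
  set d := v 0 * w 1 - v 1 * w 0 with hdd
  have e0 : bas 0 = (w 1 / d) • v - (v 1 / d) • w := by
    refine NF.ext2 ?_ ?_
    · show (bas 0) 0 = w 1 / d * v 0 - v 1 / d * w 0
      rw [bas_apply]; field_simp; rw [hdd]; simp; ring
    · show (bas 0) 1 = w 1 / d * v 1 - v 1 / d * w 1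
      rw [bas_apply]; simp; ring
  have e1 : bas 1 = (v 0 / d) • w - (w 0 / d) • v := by
    refine NF.ext2 ?_ ?_
    · show (bas 1) 0 = v 0 / d * w 0 - w 0 / d * v 0
      rw [bas_apply]; simp; ring
    · show (bas 1) 1 = v 0 / d * w 1 - w 0 / d * v 1
      rw [bas_apply]; field_simp; rw [hdd]; simp; ring
  have c0 : ContDiffAt ℝ k (fun z => Mz T n z (bas 0)) 0 := by
    have h1 := ((contDiffAt_const (c := w 1 / d)).smul hv).sub
      ((contDiffAt_const (c := v 1 / d)).smul hw)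
    refine h1.congr_of_eventuallyEq (Eventually.of_forall fun z => ?_)
    show Mz T n z (bas 0) = (w 1 / d) • Mz T n z v - (v 1 / d) • Mz T n z w
    rw [e0, map_sub, map_smul, map_smul]
  have c1 : ContDiffAt ℝ k (fun z => Mz T n z (bas 1)) 0 := by
    have h1 := ((contDiffAt_const (c := v 0 / d)).smul hw).sub
      ((contDiffAt_const (c := w 0 / d)).smul hv)
    refine h1.congr_of_eventuallyEq (Eventually.of_forall fun z => ?_)
    show Mz T n z (bas 1) = (v 0 / d) • Mz T n z w - (w 0 / d) • Mz T n z v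
    rw [e1, map_sub, map_smul, map_smul]
  have e : Mz T n = fun z => ContinuousLinearMap.smulRightL ℝ E2 E2 (pr 0) (Mz T n z (bas 0)) +
      ContinuousLinearMap.smulRightL ℝ E2 E2 (pr 1) (Mz T n z (bas 1)) := by
    funext z; exact clm_eq_sum (Mz T n z)
  rw [e]
  have s0 : ContDiffAt ℝ k (fun z => ContinuousLinearMap.smulRightL ℝ E2 E2 (pr 0)
      (Mz T n z (bas 0))) 0 :=
    ((ContinuousLinearMap.smulRightL ℝ E2 E2 (pr 0)).contDiff (n := k)).contDiffAt.comp 0 c0
  have s1 : ContDiffAt ℝ k (fun z => ContinuousLinearMap.smulRightL ℝ E2 E2 (pr 1)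
      (Mz T n z (bas 1))) 0 :=
    ((ContinuousLinearMap.smulRightL ℝ E2 E2 (pr 1)).contDiff (n := k)).contDiffAt.comp 0 c1
  exact s0.add s1

theorem gradient_inner_left (v z : E2) : gradient (fun x : E2 => inner ℝ v x) z = v := by
  refine ext_inner_right ℝ fun w => ?_
  rw [gradient_inner]
  have h : HasFDerivAt (fun x : E2 => inner ℝ v x) (innerSL ℝ v) z := (innerSL ℝ v).hasFDerivAt
  rw [h.fderiv]; rfl

/-- **Non-real eigenvalues are excluded.** -/
theorem cx_false (T : Tens L) {k₀ : ℕ} (hR : Rough T k₀) {c s : ℝ} (hN : n.N = .cx c s)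
    {v : E2} (hv : v ≠ 0) (h : ContDiffAt ℝ k₀
      (fun u => T.N o.x u (gradient (fun u => inner ℝ v (n.g u)) u)) 0) : False := by
  have hok : (NF.cx c s).OK := hN ▸ n.ok
  obtain ⟨hs, hcs⟩ := hok
  have hδ : c ^ 2 + s ^ 2 ≠ 0 := by positivity
  set R : E2 →L[ℝ] E2 := H854.mat c (-s) s c with hRdef
  have hfn : ∀ z, n.N.fn z = R z := by
    intro z
    rw [hN]
    refine NF.ext2 ?_ ?_
    · rw [NF.fn_cx_zero, hRdef, H854.mat_0]; ring
    · rw [NF.fn_cx_one, hRdef, H854.mat_1]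
  have hfd : ∀ z, fderiv ℝ n.N.fn z = R := by
    intro z
    have : n.N.fn = fun z => R z := funext hfn
    rw [this]; exact R.fderiv
  have hP : ContDiff ℝ ∞ (fun x : E2 => inner ℝ v x) := (innerSL ℝ v).contDiff
  have h1 : ContDiffAt ℝ k₀ (fun z => Mz T n z v) 0 := by
    have h2 := Mz_contDiffAt n T hP h
    refine h2.congr_of_eventuallyEq (Eventually.of_forall fun z => ?_)
    simp only [gradient_inner_left]
  set w : E2 := (c ^ 2 + s ^ 2)⁻¹ • R v with hw
  have hadj : ContinuousLinearMap.adjoint R w = v := by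
    rw [hw, map_smul, ← ContinuousLinearMap.star_eq_adjoint, hRdef, H854.star_mat]
    refine NF.ext2 ?_ ?_
    · simp only [PiLp.smul_apply, smul_eq_mul, H854.mat_0, H854.mat_1]
      field_simp; ring
    · simp only [PiLp.smul_apply, smul_eq_mul, H854.mat_0, H854.mat_1]
      field_simp; ring
  obtain ⟨S, hS, heq⟩ := Mz_eq n T
  have h3 : ContDiffAt ℝ k₀ (fun z => Mz T n z w) 0 := by
    have h4 : ContDiffAt ℝ k₀ (fun z => Mz T n (n.N.inv z) v) 0 := by
      have h5 : ContDiffAt ℝ k₀ (fun z => Mz T n z v) (n.N.inv 0) := by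
        rw [NF.inv_zero n.ok]; exact h1
      exact h5.comp 0 ((inv_SN n).self.of_le (by exact_mod_cast le_top))
    have h6 : ContDiffAt ℝ k₀ (fun z => S z w) 0 :=
      (hS.self.of_le (by exact_mod_cast le_top)).clm_apply contDiffAt_const
    have h7 : ContDiffAt ℝ k₀ (fun z => R (Mz T n (n.N.inv z) v)) 0 :=
      (R.contDiff (n := k₀)).contDiffAt.comp 0 h4
    refine (h7.add h6).congr_of_eventuallyEq ?_
    filter_upwards [heq] with z hz
    rw [hz, hfd, ContinuousLinearMap.add_apply, conj_apply, hadj]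
  refine false_of_Mz n T hR (Mz_of_two n T ?_ h1 h3)
  have e : v 0 * w 1 - v 1 * w 0 = (c ^ 2 + s ^ 2)⁻¹ * (s * (v 0 ^ 2 + v 1 ^ 2)) := by
    rw [hw, hRdef]
    simp only [PiLp.smul_apply, smul_eq_mul, H854.mat_0, H854.mat_1]
    ring
  rw [e]
  have := (sq_pos_of_ne hv).ne'
  positivity

end Vale.Agent.P207.N3.H503
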