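import Vale.Agent.P207.N3.H503.Loc2

/-!
# P207, N3-P13T: `E^s(dP, ·)` of class `C^K` for a homogeneous `P` is smooth near `0`
-/

open Set Filter Topology Metric MeasureTheory
open scoped ContDiff

noncomputable section

namespace Vale.Agent.P207.N3.H503

open H790 (NF)
open H545

/-- powers of a triangular contraction -/
theorem exists_pow_lt {D : E2 →L[ℝ] E2} {p c s m : ℝ} (h0 : D (bas 0) = p • bas 0)
    (h1 : D (bas 1) = c • bas 0 + s • bas 1) (hp : |p| ≤ m) (hs : |s| ≤ m) (hm0 : 0 < m)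
    (hm : m < 1) : ∃ q : ℕ, ‖D ^ q‖ < 1 := by
  have e0 : ∀ q : ℕ, (D ^ q) (bas 0) = p ^ q • bas 0 := by
    intro q
    induction q with
    | zero => simp
    | succ q ih =>
      rw [pow_succ', ContinuousLinearMap.mul_apply, ih, map_smul, h0, smul_smul, ← pow_succ]
  have e1 : ∀ q : ℕ, ∃ cq : ℝ, (D ^ q) (bas 1) = cq • bas 0 + s ^ q • bas 1 ∧
      |cq| * m ≤ q * |c| * m ^ q := by
    intro q
    induction q with
    | zero => exact ⟨0, by simp, by simp⟩
    | succ q ih =>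
      obtain ⟨cq, h2, h3⟩ := ih
      refine ⟨cq * p + s ^ q * c, ?_, ?_⟩
      · rw [pow_succ', ContinuousLinearMap.mul_apply, h2, map_add, map_smul, map_smul, h0, h1,
          smul_add, smul_smul, smul_smul, smul_smul, ← pow_succ]
        rw [← add_assoc, ← add_smul]
      · have h4 : |cq * p + s ^ q * c| ≤ |cq| * m + m ^ q * |c| := by
          calc _ ≤ |cq * p| + |s ^ q * c| := abs_add_le _ _
            _ = |cq| * |p| + |s| ^ q * |c| := by rw [abs_mul, abs_mul, abs_pow]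
            _ ≤ _ := by gcongr
        calc |cq * p + s ^ q * c| * m ≤ (|cq| * m + m ^ q * |c|) * m := by gcongr
          _ ≤ (q * |c| * m ^ q + m ^ q * |c|) * m := by gcongr
          _ = ((q + 1 : ℕ) : ℝ) * |c| * m ^ (q + 1) := by push_cast; ring
  have bd : ∀ q : ℕ, ‖D ^ q‖ ≤ 2 * m ^ q + (|c| / m) * (q * m ^ q) := by
    intro q
    obtain ⟨cq, h2, h3⟩ := e1 q
    have hn : ∀ i, ‖(bas i : E2)‖ = 1 := fun i => by unfold bas; simp
    have h4 : |cq| ≤ (|c| / m) * (q * m ^ q) := by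
      rw [div_mul_eq_mul_div, le_div_iff₀ hm0]
      calc _ ≤ _ := h3
        _ = _ := by ring
    refine ContinuousLinearMap.opNorm_le_bound _ (by positivity) fun x => ?_
    have hx : x = x 0 • bas 0 + x 1 • bas 1 := by
      ext i; fin_cases i <;> simp [bas]
    have hx0 : |x 0| ≤ ‖x‖ := by
      have := PiLp.norm_apply_le x 0; simpa using this
    have hx1 : |x 1| ≤ ‖x‖ := by
      have := PiLp.norm_apply_le x 1; simpa using this
    conv_lhs => rw [hx, map_add, map_smul, map_smul, e0, h2]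
    calc _ ≤ ‖x 0 • p ^ q • bas 0‖ + ‖x 1 • (cq • bas 0 + s ^ q • bas 1)‖ := norm_add_le _ _
      _ ≤ |x 0| * |p| ^ q + |x 1| * (|cq| + |s| ^ q) := by
          gcongr
          · rw [norm_smul, norm_smul, hn, Real.norm_eq_abs, Real.norm_eq_abs, abs_pow, mul_one]
          · rw [norm_smul, Real.norm_eq_abs]
            gcongr
            refine (norm_add_le _ _).trans ?_
            rw [norm_smul, norm_smul, hn, hn, Real.norm_eq_abs, Real.norm_eq_abs, abs_pow,
              mul_one, mul_one]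
      _ ≤ ‖x‖ * m ^ q + ‖x‖ * ((|c| / m) * (q * m ^ q) + m ^ q) := by gcongr
      _ = (2 * m ^ q + (|c| / m) * (q * m ^ q)) * ‖x‖ := by ring
  have h5 : Tendsto (fun q : ℕ => 2 * m ^ q + (|c| / m) * (q * m ^ q)) atTop (𝓝 0) := by
    have ha := (tendsto_pow_atTop_nhds_zero_of_lt_one hm0.le hm).const_mul 2
    have hb := (tendsto_self_mul_const_pow_of_lt_one hm0.le hm).const_mul (|c| / m)
    simpa using ha.add hb
  obtain ⟨q, hq⟩ := (h5.eventually_lt_const one_pos).exists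
  exact ⟨q, (bd q).trans_lt hq⟩

theorem fderiv_coord {f : E2 → E2} {x : E2} (hf : DifferentiableAt ℝ f x) (v : E2) (i : Fin 2) :
    (fderiv ℝ f x v) i = fderiv ℝ (fun y => f y i) x v := by
  have h := ((EuclideanSpace.proj (𝕜 := ℝ) i : E2 →L[ℝ] ℝ).hasFDerivAt.comp x
    hf.hasFDerivAt).fderiv
  have h' : fderiv ℝ (fun y => f y i) x =
    (EuclideanSpace.proj (𝕜 := ℝ) i : E2 →L[ℝ] ℝ).comp (fderiv ℝ f x) := h
  rw [h']; rfl

/-- some power of the derivative of the contracting inverse is a strict contraction -/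
theorem exists_pow_inv {μ₁ μ₂ a : ℝ} {k : ℕ} (h : (NF.tri μ₁ μ₂ a k).OK) :
    ∃ q : ℕ, ‖(fderiv ℝ (NF.tri μ₁ μ₂ a k).inv 0) ^ q‖ < 1 := by
  set N := NF.tri μ₁ μ₂ a k with hN
  obtain ⟨hm1, hm2⟩ := NF.ne_of_OK h
  have h2 : 1 < |μ₂| := h.1
  have h12 : |μ₂| ≤ |μ₁| := h.2.1
  have hd : DifferentiableAt ℝ N.inv 0 := N.contDiff_inv.contDiffAt.differentiableAt (by simp)
  have c1 : ∀ v : E2, (fderiv ℝ N.inv 0 v) 1 = μ₂⁻¹ * v 1 := by
    intro v
    rw [fderiv_coord hd]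
    have e : (fun y : E2 => N.inv y 1) =
        fun y => μ₂⁻¹ * (EuclideanSpace.proj (𝕜 := ℝ) (1 : Fin 2) : E2 →L[ℝ] ℝ) y := by
      funext y; rw [hN, NF.inv_tri_one]; rfl
    rw [e]
    have h3 := ((EuclideanSpace.proj (𝕜 := ℝ) (1 : Fin 2) : E2 →L[ℝ] ℝ).hasFDerivAt
      (x := (0 : E2))).const_mul μ₂⁻¹
    rw [h3.fderiv]; rfl
  have c0 : (fderiv ℝ N.inv 0 (bas 0)) 0 = μ₁⁻¹ := by
    rw [fderiv_coord hd]
    have e : (fun y : E2 => N.inv y 0) =
        fun y => μ₁⁻¹ * ((EuclideanSpace.proj (𝕜 := ℝ) (0 : Fin 2) : E2 →L[ℝ] ℝ) y -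
          a * (μ₂⁻¹ * (EuclideanSpace.proj (𝕜 := ℝ) (1 : Fin 2) : E2 →L[ℝ] ℝ) y) ^ k) := by
      funext y; rw [hN, NF.inv_tri_zero]; rfl
    rw [e]
    have h3 := ((((EuclideanSpace.proj (𝕜 := ℝ) (1 : Fin 2) : E2 →L[ℝ] ℝ).hasFDerivAt
      (x := (0 : E2))).const_mul μ₂⁻¹).pow k).const_mul a
    have h4 := (((EuclideanSpace.proj (𝕜 := ℝ) (0 : Fin 2) : E2 →L[ℝ] ℝ).hasFDerivAt
      (x := (0 : E2))).sub h3).const_mul μ₁⁻¹
    have h5 : fderiv ℝ (fun y : E2 => μ₁⁻¹ * ((EuclideanSpace.proj (𝕜 := ℝ) (0 : Fin 2) :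
        E2 →L[ℝ] ℝ) y - a * (μ₂⁻¹ * (EuclideanSpace.proj (𝕜 := ℝ) (1 : Fin 2) :
        E2 →L[ℝ] ℝ) y) ^ k)) 0 = _ := h4.fderiv
    rw [h5]
    simp [bas]
  refine exists_pow_lt (p := μ₁⁻¹) (c := (fderiv ℝ N.inv 0 (bas 1)) 0) (s := μ₂⁻¹) (m := |μ₂|⁻¹)
    ?_ ?_ ?_ ?_ (by positivity) (inv_lt_one_of_one_lt₀ h2)
  · ext i
    fin_cases i
    · simpa [bas] using c0
    · have := c1 (bas 0)
      simpa [bas] using this
  · ext i
    fin_cases i
    · simp [bas]
    · have := c1 (bas 1)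
      simpa [bas] using this
  · rw [abs_inv]
    exact inv_anti₀ (by positivity) h12
  · rw [abs_inv]

variable {Γ X B : Type} [Group Γ] [MetricSpace X] [ProperSpace X] [MulAction Γ X]
  [IsIsometricSMul Γ X] [TopologicalSpace B] [CompactSpace B] [T2Space B] [MulAction Γ B]
  [ContinuousConstSMul Γ B]

variable {L : Leaf Γ X B} {o : Orb L} (n : Nor L o)

theorem Mz_gradient (T : Tens L) {P : E2 → ℝ} (hP : ContDiff ℝ ∞ P) :
    ∀ᶠ z in 𝓝 (0 : E2), Mz T n z (gradient P z) =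
      fderiv ℝ n.g (psi n z) (T.N o.x (psi n z) (gradient (fun u => P (n.g u)) (psi n z))) := by
  filter_upwards [ball_mem_nhds (0 : E2) (rad_pos n)] with z hz
  have h1 := psi_mem n hz
  rw [gradient_comp (f := n.g) (hP.contDiffAt.differentiableAt (by simp))
    ((g_contDiffAt n h1).differentiableAt (by simp)), g_psi n hz]
  rfl

/-- `E^s(dP, ·)` in the normal coordinate is as smooth as in the chart. -/
theorem Mz_contDiffAt (T : Tens L) {P : E2 → ℝ} (hP : ContDiff ℝ ∞ P) {K : ℕ}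
    (h : ContDiffAt ℝ K (fun u => T.N o.x u (gradient (fun u => P (n.g u)) u)) 0) :
    ContDiffAt ℝ K (fun z => Mz T n z (gradient P z)) 0 := by
  have hps : ContDiffAt ℝ K (psi n) 0 := (psi_SN n).self.of_le (by exact_mod_cast le_top)
  have h1 : ContDiffAt ℝ K (fun z => T.N o.x (psi n z)
      (gradient (fun u => P (n.g u)) (psi n z))) 0 := by
    have h2 : ContDiffAt ℝ K (fun u => T.N o.x u (gradient (fun u => P (n.g u)) u)) (psi n 0) := by
      rw [psi_zero]; exact h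
    exact h2.comp 0 hps
  have h3 : ContDiffAt ℝ K (fun z => fderiv ℝ n.g (psi n z)) 0 := by
    have h4 := ((g_SN n).fderiv.comp (psi_SN n) (psi_zero n)).self
    exact h4.of_le (by exact_mod_cast le_top)
  exact (h3.clm_apply h1).congr_of_eventuallyEq (Mz_gradient n T hP)

theorem gradient_const_mul {P : E2 → ℝ} {ν : ℝ} {w : E2} (hP : DifferentiableAt ℝ P w) :
    gradient (fun x => ν * P x) w = ν • gradient P w := by
  refine ext_inner_right ℝ fun v => ?_
  rw [gradient_inner, inner_smul_left, gradient_inner, fderiv_const_mul hP]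
  simp

/-- **Smoothness of `E^s(dP, ·)`**, `P ∘ N = ν P`; the order `K` depends on `N` and `ν` only. -/
theorem dir_K (L : Leaf Γ X B) {N : NF} {μ₁ μ₂ a : ℝ} {k : ℕ} (hN : N = .tri μ₁ μ₂ a k)
    (hok : N.OK) (ν : ℝ) : ∃ K : ℕ, ∀ (o : Orb L) (n : Nor L o) (T : Tens L) (P : E2 → ℝ),
      n.N = N → ContDiff ℝ ∞ P → (∀ x, P (N.fn x) = ν * P x) →
      ContDiffAt ℝ K (fun u => T.N o.x u (gradient (fun u => P (n.g u)) u)) 0 →
      SN (fun z => Mz T n z (gradient P z)) := by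
  obtain ⟨q, hq⟩ := exists_pow_inv (hN ▸ hok)
  rw [← hN] at hq
  have hinv : SN N.inv := SN.of_contDiff N.contDiff_inv
  have hfn : SN N.fn := SN.of_contDiff N.contDiff_fn
  have hA : SN (fun z => ν • fderiv ℝ N.fn (N.inv z)) := by
    have h1 := hfn.fderiv.comp hinv (NF.inv_zero hok)
    filter_upwards [h1] with z hz
    exact (contDiffAt_const (c := ν)).smul hz
  obtain ⟨K, hK⟩ := boot_near (F := E2) hinv (NF.inv_zero hok) hA hq
  refine ⟨K, fun o n T P hn hP hPN h => ?_⟩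
  subst hn
  obtain ⟨S, hS, heq⟩ := Mz_eq n T
  refine hK (fun z => S z (gradient P z)) _ (hS.clm (SN.of_contDiff hP).gradient)
    (Mz_contDiffAt n T hP h) ?_
  filter_upwards [heq] with z hz
  rw [hz]
  have hz' : n.N.fn (n.N.inv z) = z := NF.fn_inv n.ok z
  have h1 : ContinuousLinearMap.adjoint (fderiv ℝ n.N.fn (n.N.inv z)) (gradient P z) =
      ν • gradient P (n.N.inv z) := by
    have h2 := gradient_comp (P := P) (f := n.N.fn) (w := n.N.inv z)
      (hP.contDiffAt.differentiableAt (by simp))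
      (n.N.contDiff_fn.contDiffAt.differentiableAt (by simp))
    rw [hz'] at h2
    rw [← h2]
    have h3 : (fun x => P (n.N.fn x)) = fun x => ν * P x := funext hPN
    rw [h3, gradient_const_mul (hP.contDiffAt.differentiableAt (by simp))]
  show (conj (fderiv ℝ n.N.fn (n.N.inv z)) (Mz T n (n.N.inv z)) + S z) (gradient P z) = _
  rw [ContinuousLinearMap.add_apply, conj_apply, h1]
  simp

end Vale.Agent.P207.N3.H503
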