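import Vale.Agent.P207.N3.H503.Core
import Vale.Agent.P207.N3.H854.LForm

/-!
# P207, N3-P13T: the local form in the chart of the axis frame
-/

open Set Filter Topology Metric MeasureTheory
open scoped ContDiff

noncomputable section

namespace Vale.Agent.P207.N3.H503

open H790 (NF)
open H545

variable {Γ X B : Type} [Group Γ] [MetricSpace X] [ProperSpace X] [MulAction Γ X]
  [IsIsometricSMul Γ X] [TopologicalSpace B] [CompactSpace B] [T2Space B] [MulAction Γ B]
  [ContinuousConstSMul Γ B]

variable {L : Leaf Γ X B} {o : Orb L} (n : Nor L o)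

theorem g_inj : InjOn n.g (closedBall (0 : E2) 3) := by
  intro u hu v hv h
  unfold Nor.g at h
  have h1 := n.inv_left _ (e_ne_neg (o := o) hu)
  have h2 := n.inv_left _ (e_ne_neg (o := o) hv)
  refine L.e_inj o.x hu hv ?_
  rw [← h1, ← h2, h]

theorem psi_g {u : E2} (hu : u ∈ ball (0 : E2) 3) (h : n.g u ∈ ball (0 : E2) (rad n)) :
    psi n (n.g u) = u :=
  g_inj n (ball_subset_closedBall (psi_mem n h)) (ball_subset_closedBall hu) (g_psi n h)

theorem EE_eq_sq (i : Fin 2) : EE i = H854.sq (bas i) := by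
  ext v : 1
  rw [EE_apply, H854.sq_apply, real_inner_comm, inner_bas]

theorem locForm_of_locZ {T : Tens L} {i : Fin 2} (h : LocZ T n i) : H854.LocForm T n i := by
  obtain ⟨b, hb, hS⟩ := h
  obtain ⟨r, hr, hon⟩ := hS.exists_on
  refine ⟨min r (rad n), lt_min hr (rad_pos n), b,
    fun z => Mz T n z - b (z i) • EE (1 - i), hb.continuousOn,
    hon.mono (ball_subset_ball (min_le_left _ _)), fun u hu hg => ?_⟩
  have h1 : n.g u ∈ ball (0 : E2) (rad n) :=
    mem_ball_zero_iff.2 (hg.trans_le (min_le_right _ _))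
  have h2 := psi_g n hu h1
  rw [EE_eq_sq, sub_add_cancel]
  unfold Mz
  rw [h2]

end Vale.Agent.P207.N3.H503
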