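import Vale.Agent.P207.N3.H503.Cx

/-!
# P207, N3-P13T: every closed orbit, run twice, has a local form
-/

open Set Filter Topology Metric MeasureTheory
open scoped ContDiff

noncomputable section

namespace Vale.Agent.P207.N3.H503

open H790 (NF)
open H545

variable {Γ X B : Type} [Group Γ] [MetricSpace X] [ProperSpace X] [MulAction Γ X]
  [IsIsometricSMul Γ X] [TopologicalSpace B] [CompactSpace B] [T2Space B] [MulAction Γ B]
  [ContinuousConstSMul Γ B]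

variable {L : Leaf Γ X B} {o : Orb L}

/-- the four possible local forms (types F, S, C, J) -/
def Four (T : Tens L) {o : Orb L} (n : Nor L o) (i : Fin 2) : Prop :=
  H854.LocForm T n i ∧
    ((n.N.Split ∧ (∃ μ₁ μ₂ a k, n.N = .tri μ₁ μ₂ a k) ∧ i = 1) ∨
      (n.N.Split ∧ (∃ μ₁ μ₂ k, n.N = .tri μ₁ μ₂ 0 k) ∧ i = 0) ∨
      ((∃ μ k, n.N = .tri μ μ 0 k) ∧ i = 1) ∨
      ((∃ μ a, a ≠ 0 ∧ n.N = .tri μ μ a 1) ∧ i = 1))

/-- `K` is an order of smoothness which is sufficient for the eigenfunctions of `N` with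
eigenvalue `ν` -/
def Suf (L : Leaf Γ X B) (N : NF) (ν : ℝ) (K : ℕ) : Prop :=
  ∀ (o : Orb L) (n : Nor L o) (T : Tens L) (P : E2 → ℝ),
      n.N = N → ContDiff ℝ ∞ P → (∀ x, P (N.fn x) = ν * P x) →
      ContDiffAt ℝ K (fun u => T.N o.x u (gradient (fun u => P (n.g u)) u)) 0 →
      SN (fun z => Mz T n z (gradient P z))

theorem Suf.mono {N : NF} {ν : ℝ} {K K' : ℕ} (h : Suf L N ν K) (hK : K ≤ K') : Suf L N ν K' :=
  fun o n T P hn hP hPN hd => h o n T P hn hP hPN (hd.of_le (by exact_mod_cast hK))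

theorem exists_suf {N : NF} {μ₁ μ₂ a : ℝ} {k : ℕ} (hN : N = .tri μ₁ μ₂ a k) (hok : N.OK)
    (ν : ℝ) : ∃ K, Suf L N ν K := dir_K L hN hok ν

/-- one order for finitely many eigenvalues -/
theorem exists_suf_all {N : NF} {μ₁ μ₂ a : ℝ} {k : ℕ} (hN : N = .tri μ₁ μ₂ a k) (hok : N.OK)
    (ν : ℕ → ℝ) (J : ℕ) : ∃ K, ∀ j ≤ J, Suf L N (ν j) K := by
  induction J with
  | zero =>
    obtain ⟨K, hK⟩ := exists_suf (L := L) hN hok (ν 0)
    exact ⟨K, fun j hj => by rwa [Nat.le_zero.1 hj]⟩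
  | succ J ih =>
    obtain ⟨K, hK⟩ := ih
    obtain ⟨K', hK'⟩ := exists_suf (L := L) hN hok (ν (J + 1))
    refine ⟨max K K', fun j hj => ?_⟩
    rcases Nat.le_succ_iff.1 hj with h | h
    · exact (hK j h).mono (le_max_left _ _)
    · rw [h]; exact hK'.mono (le_max_right _ _)

/-- one order for all eigenvalues which occur in `LimFn` -/
theorem exists_order {N : NF} {μ₁ μ₂ a : ℝ} {k : ℕ} (hN : N = .tri μ₁ μ₂ a k) (hok : N.OK) :
    ∃ K, Suf L N μ₁ K ∧ ∀ j, |μ₂| ^ j ≤ |μ₁| → Suf L N (μ₂ ^ j) K := by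
  have h2 : 1 < |μ₂| := (hN ▸ hok : (NF.tri μ₁ μ₂ a k).OK).1
  obtain ⟨J, hJ⟩ := pow_unbounded_of_one_lt |μ₁| h2
  obtain ⟨K, hK⟩ := exists_suf_all (L := L) hN hok (fun j => μ₂ ^ j) J
  obtain ⟨K', hK'⟩ := exists_suf (L := L) hN hok μ₁
  refine ⟨max K K', hK'.mono (le_max_right _ _), fun j hj => (hK j ?_).mono (le_max_left _ _)⟩
  by_contra h
  have h3 : |μ₂| ^ J ≤ |μ₂| ^ j := pow_le_pow_right₀ h2.le (by omega)
  linarith

/-- direction of a power of a coordinate ⟹ local form -/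
theorem loc_of_dir (hdl : DivLemma) {T : Tens L} {n : Nor L o} (D : DivIn T n) {μ₁ μ₂ a : ℝ}
    {k : ℕ} (hN : n.N = .tri μ₁ μ₂ a k) (i : Fin 2) (hi : i = 0 → n.N.Split) (m : ℕ) {ν : ℝ}
    {K : ℕ} (hK : Suf L n.N ν K) (hν : ∀ x : E2, n.N.fn x i ^ (m + 1) = ν * x i ^ (m + 1))
    {c : ℝ} (hc : c ≠ 0)
    (h : ContDiffAt ℝ K
      (fun u => T.N o.x u (gradient (fun u => c * n.g u i ^ (m + 1)) u)) 0) :
    H854.LocForm T n i := by
  have hP : ContDiff ℝ ∞ (fun x : E2 => x i ^ (m + 1)) := (NF.contDiff_coord i).pow (m + 1)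
  refine locForm_of_locZ n (locZ_of_dir hdl D hN i hi m (hK o n T _ rfl hP hν ?_))
  have h1 := (contDiffAt_const (c := c⁻¹)).smul h
  refine h1.congr_of_eventuallyEq ?_
  filter_upwards [ball_mem_nhds (0 : E2) (by norm_num : (0 : ℝ) < 3)] with u hu
  have h2 : DifferentiableAt ℝ (fun u => n.g u i ^ (m + 1)) u := by
    have h3 := (g_contDiffAt n hu).differentiableAt (by simp)
    exact (hP.contDiffAt.differentiableAt (by simp)).comp u h3
  show T.N o.x u (gradient (fun u => n.g u i ^ (m + 1)) u) =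
    c⁻¹ • T.N o.x u (gradient (fun u => c * n.g u i ^ (m + 1)) u)
  rw [gradient_const_mul h2, map_smul, smul_smul, inv_mul_cancel₀ hc, one_smul]

/-- **Every closed orbit with real eigenvalues, run twice, has a local form.** -/
theorem four_of_tri (hdl : DivLemma) {T : Tens L} (hlim : ∀ k, LimDir T k)
    (hdiv : ∀ (o : Orb L) (n : Nor L o), (∃ μ₁ μ₂ a k, n.N = .tri μ₁ μ₂ a k) →
      Nonempty (DivIn T n)) (n : Nor L o) {μ₁ μ₂ a : ℝ} {k : ℕ} (hN : n.N = .tri μ₁ μ₂ a k)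
    (h1 : 0 < μ₁) (h2 : 0 < μ₂) : ∃ (n' : Nor L o) (i : Fin 2), Four T n' i := by
  have hok : (NF.tri μ₁ μ₂ a k).OK := hN ▸ n.ok
  have ha1 : |μ₁| = μ₁ := abs_of_pos h1
  have ha2 : |μ₂| = μ₂ := abs_of_pos h2
  obtain ⟨K, hK1, hK2⟩ := exists_order (L := L) rfl hok
  obtain ⟨P, hP, hd⟩ := hlim K o n
  rw [hN] at hP
  rcases hP with ⟨hs, c, hc, j, hj, hjl, rfl⟩ | ⟨hs, rfl, c, hc, c', j, hcj, rfl⟩ |
    ⟨he, rfl, v, hv, rfl⟩ | ⟨he, ha, c, hc, rfl⟩
  · -- type F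
    have hsp : n.N.Split := by rw [hN]; exact hs
    obtain ⟨m, rfl⟩ : ∃ m, j = m + 1 := ⟨j - 1, by omega⟩
    obtain ⟨D⟩ := hdiv o n ⟨_, _, _, _, hN⟩
    refine ⟨n, 1, loc_of_dir hdl D hN 1 (fun h => absurd h (by decide)) m (ν := μ₂ ^ (m + 1)) (K := K) ?_ ?_ hc hd,
      Or.inl ⟨hsp, ⟨_, _, _, _, hN⟩, rfl⟩⟩
    · rw [hN]; exact hK2 _ hjl
    · intro x
      rw [hN, NF.fn_tri_one, mul_pow]
  · -- type S
    rw [ha1, ha2] at hcj
    -- the change of coordinates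
    obtain ⟨t, j', hj', ht, hfun⟩ : ∃ (t : ℝ) (j' : ℕ), 1 ≤ j' ∧ (t ≠ 0 → μ₂ ^ j' = μ₁) ∧
        ∀ x : E2, c * x 0 + c' * x 1 ^ j = c * (shear t j' x 0) ^ (0 + 1) := by
      by_cases hc' : c' = 0
      · refine ⟨0, 1, le_rfl, fun h => absurd rfl h, fun x => ?_⟩
        rw [hc']
        show c * x 0 + 0 * x 1 ^ j = c * (x 0 + 0 * x 1 ^ 1) ^ (0 + 1)
        ring
      · refine ⟨c' / c, j, ?_, fun _ => hcj hc', fun x => ?_⟩
        · by_contra h
          have hj0 : j = 0 := by omega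
          have h3 := hcj hc'
          rw [hj0, pow_zero] at h3
          have h4 := hok.1
          have h5 := hok.2.1
          rw [ha1, ← h3] at h5
          linarith
        · show c * x 0 + c' * x 1 ^ j = c * (x 0 + c' / c * x 1 ^ j) ^ (0 + 1)
          rw [zero_add, pow_one]
          field_simp
    obtain ⟨ch, hch⟩ : ∃ ch : Chg n.N (NF.tri μ₁ μ₂ 0 k), ch.S = shear t j' := by
      rw [hN]; exact ⟨shearChg t j' hj' ht, rfl⟩
    have hN' : (chg n ch hok).N = .tri μ₁ μ₂ 0 k := rfl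
    have hsp : (chg n ch hok).N.Split := hs
    obtain ⟨D⟩ := hdiv o (chg n ch hok) ⟨_, _, _, _, hN'⟩
    refine ⟨chg n ch hok, 0, loc_of_dir hdl D hN' 0 (fun _ => hsp) 0 (ν := μ₁) (K := K) ?_ ?_ hc ?_,
      Or.inr (Or.inl ⟨hsp, ⟨_, _, _, hN'⟩, rfl⟩)⟩
    · exact hK1
    · intro x
      rw [hN', NF.fn_tri_zero]; ring
    · refine hd.congr_of_eventuallyEq (Eventually.of_forall fun u => ?_)
      have e : (fun u => c * (chg n ch hok).g u 0 ^ (0 + 1)) =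
          fun u => c * n.g u 0 + c' * n.g u 1 ^ j := by
        funext u
        rw [hfun, chg_g, hch]
      rw [e]
  · -- type C
    have hμ : μ₂ = μ₁ := by rw [← ha1, ← ha2, he]
    subst hμ
    obtain ⟨ch, hch⟩ : ∃ ch : Chg n.N (NF.tri μ₂ μ₂ 0 k), ch.S = rotv v := by
      rw [hN]; exact ⟨rotChg v hv, rfl⟩
    have hN' : (chg n ch hok).N = .tri μ₂ μ₂ 0 k := rfl
    obtain ⟨D⟩ := hdiv o (chg n ch hok) ⟨_, _, _, _, hN'⟩
    refine ⟨chg n ch hok, 1, loc_of_dir hdl D hN' 1 (fun h => absurd h (by decide)) 0 (ν := μ₂) (K := K) ?_ ?_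
      one_ne_zero ?_, Or.inr (Or.inr (Or.inl ⟨⟨_, _, hN'⟩, rfl⟩))⟩
    · exact hK1
    · intro x
      rw [hN', NF.fn_tri_one]; ring
    · refine hd.congr_of_eventuallyEq (Eventually.of_forall fun u => ?_)
      have e : (fun u => (1 : ℝ) * (chg n ch hok).g u 1 ^ (0 + 1)) =
          fun u => inner ℝ v (n.g u) := by
        funext u
        rw [chg_g, hch]
        show (1 : ℝ) * (v 0 * n.g u 0 + v 1 * n.g u 1) ^ (0 + 1) = _
        rw [H854.inner2]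
        ring
      rw [e]
  · -- type J
    have hμ : μ₂ = μ₁ := by rw [← ha1, ← ha2, he]
    subst hμ
    have hk1 : k = 1 := by
      obtain ⟨hk, hμk⟩ := hok.2.2 ha
      have h3 : 1 < μ₂ := by have := hok.1; rwa [ha2] at this
      by_contra hne
      have h4 : 2 ≤ k := by omega
      have h5 : μ₂ ^ 2 ≤ μ₂ ^ k := pow_le_pow_right₀ h3.le h4
      rw [← hμk] at h5
      nlinarith
    subst hk1
    obtain ⟨D⟩ := hdiv o n ⟨_, _, _, _, hN⟩
    refine ⟨n, 1, loc_of_dir hdl D hN 1 (fun h => absurd h (by decide)) 0 (ν := μ₂) (K := K) ?_ ?_ hc ?_,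
      Or.inr (Or.inr (Or.inr ⟨⟨_, _, ha, hN⟩, rfl⟩))⟩
    · rw [hN]; exact hK1
    · intro x
      rw [hN, NF.fn_tri_one]; ring
    · refine hd.congr_of_eventuallyEq (Eventually.of_forall fun u => ?_)
      have e : (fun u => c * n.g u 1 ^ (0 + 1)) = fun u => c * n.g u 1 := by
        funext u; ring
      rw [e]

/-- **Every closed orbit, run twice, has a local form.** -/
theorem exists_four (hdl : DivLemma) {T : Tens L} {k₀ : ℕ} (hR : Rough T k₀)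
    (hlim : ∀ k, LimDir T k)
    (hdiv : ∀ (o : Orb L) (n : Nor L o), (∃ μ₁ μ₂ a k, n.N = .tri μ₁ μ₂ a k) →
      Nonempty (DivIn T n)) (n : Nor L o) :
    ∃ (n' : Nor L (dbl o)) (i : Fin 2), Four T n' i := by
  cases hN : n.N with
  | tri μ₁ μ₂ a k =>
    have hok : (NF.tri μ₁ μ₂ a k).OK := hN ▸ n.ok
    obtain ⟨hμ1, hμ2⟩ := NF.ne_of_OK hok
    exact four_of_tri hdl hlim hdiv (dblNor n hN) (dblNor_N n hN)
      (mul_self_pos.2 hμ1) (mul_self_pos.2 hμ2)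
  | cx c s =>
    exfalso
    obtain ⟨P, hP, hd⟩ := hlim k₀ o n
    rw [hN] at hP
    obtain ⟨v, hv, rfl⟩ := hP
    exact cx_false n T hR hN hv hd

end Vale.Agent.P207.N3.H503
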