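import Vale.Agent.P207.N3.H503.Boot2

/-!
# P207, N3-P13T: bootstrapping with iterates; smoothness in a fixed neighbourhood
-/

open Set Filter Topology Metric
open scoped ContDiff

noncomputable section

namespace Vale.Agent.P207.N3.H503

variable {E : Type} [NormedAddCommGroup E] [NormedSpace ℝ E]

/-- smooth in a neighbourhood of `0`, filter form -/
def SN {F : Type} [NormedAddCommGroup F] [NormedSpace ℝ F] (g : E → F) : Prop :=
  ∀ᶠ z in 𝓝 (0 : E), ContDiffAt ℝ ∞ g z

section SN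

variable {F F' F'' : Type} [NormedAddCommGroup F] [NormedSpace ℝ F] [NormedAddCommGroup F']
  [NormedSpace ℝ F'] [NormedAddCommGroup F''] [NormedSpace ℝ F'']

theorem SN.self {g : E → F} (h : SN g) : ContDiffAt ℝ ∞ g 0 := h.self_of_nhds

theorem SN.of_contDiff {g : E → F} (h : ContDiff ℝ ∞ g) : SN g :=
  Eventually.of_forall fun _ => h.contDiffAt

theorem SN.of_on {g : E → F} {r : ℝ} (hr : 0 < r) (h : ContDiffOn ℝ ∞ g (ball 0 r)) : SN g := by
  filter_upwards [ball_mem_nhds (0 : E) hr] with z hz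
  exact (h z hz).contDiffAt (isOpen_ball.mem_nhds hz)

theorem SN.exists_on {g : E → F} (h : SN g) : ∃ r > 0, ContDiffOn ℝ ∞ g (ball 0 r) := by
  obtain ⟨r, hr, hb⟩ := Metric.eventually_nhds_iff_ball.1 h
  exact ⟨r, hr, fun z hz => (hb z hz).contDiffWithinAt⟩

theorem SN.comp {g : E → F} {G : E → E} (h : SN g) (hG : SN G) (h0 : G 0 = 0) :
    SN (fun z => g (G z)) := by
  have hc : Tendsto G (𝓝 0) (𝓝 0) := by
    have := hG.self.continuousAt.tendsto; rwa [h0] at this
  filter_upwards [hG, hc.eventually h] with z h1 h2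
  exact h2.comp z h1

theorem SN.congr {g g' : E → F} (h : SN g) (he : ∀ᶠ z in 𝓝 (0 : E), g' z = g z) : SN g' := by
  filter_upwards [h, he.eventually_nhds] with z h1 h2
  exact h1.congr_of_eventuallyEq h2

theorem SN.add {g g' : E → F} (h : SN g) (h' : SN g') : SN (fun z => g z + g' z) := by
  filter_upwards [h, h'] with z h1 h2
  exact h1.add h2

theorem SN.sub {g g' : E → F} (h : SN g) (h' : SN g') : SN (fun z => g z - g' z) := by
  filter_upwards [h, h'] with z h1 h2
  exact h1.sub h2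

theorem SN.neg {g : E → F} (h : SN g) : SN (fun z => - g z) := by
  filter_upwards [h] with z h1
  exact h1.neg

theorem SN.clm {A : E → F →L[ℝ] F'} {g : E → F} (hA : SN A) (h : SN g) :
    SN (fun z => A z (g z)) := by
  filter_upwards [hA, h] with z h1 h2
  exact h1.clm_apply h2

theorem SN.clm_comp {A : E → F' →L[ℝ] F''} {A' : E → F →L[ℝ] F'} (hA : SN A) (hA' : SN A') :
    SN (fun z => (A z).comp (A' z)) := by
  filter_upwards [hA, hA'] with z h1 h2
  exact h1.clm_comp h2

theorem SN.fderiv {g : E → F} (h : SN g) : SN (fderiv ℝ g) := by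
  filter_upwards [h] with z h1
  exact h1.fderiv_right (m := ∞) (by simp)

theorem SN.lin (A : F →L[ℝ] F') {g : E → F} (h : SN g) : SN (fun z => A (g z)) := by
  filter_upwards [h] with z h1
  exact A.contDiff.contDiffAt.comp z h1

end SN

theorem iterate_zero_of {G : E → E} (h0 : G 0 = 0) (q : ℕ) : G^[q] 0 = 0 :=
  Function.iterate_fixed h0 q

theorem SN.iterate {G : E → E} (hG : SN G) (h0 : G 0 = 0) (q : ℕ) : SN (G^[q]) := by
  induction q with
  | zero => exact SN.of_contDiff contDiff_id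
  | succ q ih =>
    have : (G^[q + 1]) = fun z => G (G^[q] z) := by
      funext z; rw [Function.iterate_succ_apply']
    rw [this]
    exact hG.comp ih (iterate_zero_of h0 q)

theorem iter_eq {F : Type} [NormedAddCommGroup F] [NormedSpace ℝ F] {G : E → E}
    {A : E → F →L[ℝ] F} {S Z : E → F} (hG : SN G) (h0 : G 0 = 0) (hA : SN A) (hS : SN S)
    (h : ∀ᶠ z in 𝓝 (0 : E), Z z = A z (Z (G z)) + S z) (q : ℕ) :
    ∃ (Aq : E → F →L[ℝ] F) (Sq : E → F), SN Aq ∧ SN Sq ∧ Aq 0 = (A 0) ^ q ∧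
      ∀ᶠ z in 𝓝 (0 : E), Z z = Aq z (Z (G^[q] z)) + Sq z := by
  induction q with
  | zero =>
    refine ⟨fun _ => 1, fun _ => 0, SN.of_contDiff contDiff_const, SN.of_contDiff contDiff_const,
      by simp, Eventually.of_forall fun z => by simp⟩
  | succ q ih =>
    obtain ⟨Aq, Sq, h1, h2, h3, h4⟩ := ih
    have hGq := hG.iterate h0 q
    have hGq0 := iterate_zero_of h0 q
    have hc : Tendsto (G^[q]) (𝓝 0) (𝓝 0) := by
      have := hGq.self.continuousAt.tendsto; rwa [hGq0] at this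
    refine ⟨fun z => (Aq z).comp (A (G^[q] z)), fun z => Aq z (S (G^[q] z)) + Sq z,
      h1.clm_comp (hA.comp hGq hGq0), (h1.clm (hS.comp hGq hGq0)).add h2, ?_, ?_⟩
    · show (Aq 0).comp (A (G^[q] 0)) = _
      rw [hGq0, h3, pow_succ]; rfl
    · filter_upwards [h4, hc.eventually h] with z h5 h6
      rw [h5, h6, Function.iterate_succ_apply', map_add]
      simp only [ContinuousLinearMap.comp_apply]
      abel

/-- **Bootstrapping in a neighbourhood**: if some power of `DG(0)` is a contraction, a solution of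
`Z z = A z (Z (G z)) + S z` of class `C^K` at `0` is smooth near `0`, `K = K(G, A 0)`. -/
theorem boot_near {F : Type} [NormedAddCommGroup F] [NormedSpace ℝ F] [CompleteSpace F]
    {G : E → E} {A : E → F →L[ℝ] F} (hG : SN G) (h0 : G 0 = 0) (hA : SN A) {q : ℕ}
    (hq : ‖(fderiv ℝ G 0) ^ q‖ < 1) : ∃ K : ℕ, ∀ S Z : E → F, SN S → ContDiffAt ℝ K Z 0 →
    (∀ᶠ z in 𝓝 (0 : E), Z z = A z (Z (G z)) + S z) → SN Z := by
  set θ := ‖(fderiv ℝ G 0) ^ q‖ with hθ
  obtain ⟨K, hK⟩ : ∃ K : ℕ, ‖(A 0) ^ q‖ * θ ^ K < 1 := by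
    have h1 : Tendsto (fun K : ℕ => ‖(A 0) ^ q‖ * θ ^ K) atTop (𝓝 0) := by
      simpa using (tendsto_pow_atTop_nhds_zero_of_lt_one (norm_nonneg _) hq).const_mul ‖(A 0) ^ q‖
    exact (h1.eventually_lt_const one_pos).exists
  refine ⟨K, fun S Z hS hZ h => ?_⟩
  obtain ⟨Aq, Sq, h1, h2, h3, h4⟩ := iter_eq hG h0 hA hS h q
  have hGq := hG.iterate h0 q
  have hGq0 := iterate_zero_of h0 q
  have hd : HasFDerivAt (G^[q]) ((fderiv ℝ G 0) ^ q) 0 :=
    HasFDerivAt.iterate (hG.self.differentiableAt (by simp)).hasFDerivAt h0 q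
  have hfd : fderiv ℝ (G^[q]) 0 = (fderiv ℝ G 0) ^ q := hd.fderiv
  have hZ0 : ContDiffAt ℝ ∞ Z 0 := by
    refine boot_all hGq.self hGq0 (by rw [hfd]; exact hq) h1.self K ?_ h2.self hZ h4
    rw [hfd, h3]; exact hK
  -- the neighbourhood
  obtain ⟨θ', h5, h6⟩ := exists_between hq
  have hθ'0 : 0 < θ' := (norm_nonneg _).trans_lt h5
  have evd : ∀ᶠ z in 𝓝 (0 : E), ‖fderiv ℝ (G^[q]) z‖ < θ' := by
    have hc : ContinuousAt (fderiv ℝ (G^[q])) 0 :=
      (hGq.self.fderiv_right (m := 0) (by simp)).continuousAt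
    refine hc.norm.eventually_lt_const ?_
    show ‖fderiv ℝ (G^[q]) 0‖ < θ'
    rw [hfd]; exact h5
  obtain ⟨r, hr, hall⟩ := Metric.eventually_nhds_iff_ball.1
    (hGq.and <| h1.and <| h2.and <| h4.and evd)
  have hmap : ∀ z ∈ ball (0 : E) r, ‖G^[q] z‖ ≤ θ' * ‖z‖ := by
    intro z hz
    have := (convex_ball (0 : E) r).norm_image_sub_le_of_norm_fderiv_le (𝕜 := ℝ) (f := G^[q])
      (C := θ') (fun x hx => ((hall x hx).1.differentiableAt (by simp)))
      (fun x hx => (hall x hx).2.2.2.2.le) (mem_ball_self hr) hz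
    rwa [hGq0, sub_zero, sub_zero] at this
  have hmem : ∀ z ∈ ball (0 : E) r, G^[q] z ∈ ball (0 : E) r := by
    intro z hz
    rw [mem_ball_zero_iff] at hz ⊢
    calc _ ≤ θ' * ‖z‖ := hmap z (mem_ball_zero_iff.2 hz)
      _ ≤ 1 * ‖z‖ := by gcongr
      _ < r := by simpa using hz
  have key : ∀ m : ℕ, ∀ z ∈ ball (0 : E) r, ContDiffAt ℝ m Z z := by
    intro m
    obtain ⟨ε, hε, hεb⟩ := Metric.eventually_nhds_iff_ball.1
      ((hZ0.of_le (m := m) (by exact_mod_cast le_top)).eventually (by simp))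
    have step : ∀ j : ℕ, ∀ z ∈ ball (0 : E) r, θ' ^ j * ‖z‖ < ε → ContDiffAt ℝ m Z z := by
      intro j
      induction j with
      | zero =>
        intro z _ h7
        exact hεb z (by rw [mem_ball_zero_iff]; simpa using h7)
      | succ j ih =>
        intro z hz h7
        have h8 := ih (G^[q] z) (hmem z hz) (by
          calc θ' ^ j * ‖G^[q] z‖ ≤ θ' ^ j * (θ' * ‖z‖) := by
                gcongr; exact hmap z hz
            _ = θ' ^ (j + 1) * ‖z‖ := by ring
            _ < ε := h7)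
        have h9 : ContDiffAt ℝ m (fun z => Aq z (Z (G^[q] z)) + Sq z) z := by
          have ha := (hall z hz).1.of_le (m := m) (by exact_mod_cast le_top)
          have hb := (hall z hz).2.1.of_le (m := m) (by exact_mod_cast le_top)
          have hc := (hall z hz).2.2.1.of_le (m := m) (by exact_mod_cast le_top)
          exact (hb.clm_apply (h8.comp z ha)).add hc
        refine h9.congr_of_eventuallyEq ?_
        filter_upwards [isOpen_ball.mem_nhds hz] with w hw
        exact (hall w hw).2.2.2.1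
    intro z hz
    have h7 : Tendsto (fun j : ℕ => θ' ^ j * ‖z‖) atTop (𝓝 0) := by
      simpa using (tendsto_pow_atTop_nhds_zero_of_lt_one hθ'0.le h6).mul_const ‖z‖
    obtain ⟨j, hj⟩ := (h7.eventually_lt_const hε).exists
    exact step j z hz hj
  filter_upwards [ball_mem_nhds (0 : E) hr] with z hz
  rw [contDiffAt_infty]
  exact fun m => key m z hz

end Vale.Agent.P207.N3.H503
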