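import Vale.Agent.P207.N3.H503.In
import Vale.Agent.P207.N3.H545.Step2

/-!
# P207, N3-P13T: the normal coordinate near `β^+`

`n.g u = n.x (e o.x u)` is a local diffeomorphism; `psi n` is its inverse near `0`;
`n.g (F u) = N⁻¹ (n.g u)` for the return map `F = o.ret`.
-/

open Set Filter Topology Metric MeasureTheory
open scoped ContDiff

noncomputable section

namespace Vale.Agent.P207.N3.H503

variable {Γ X B : Type} [Group Γ] [MetricSpace X] [ProperSpace X] [MulAction Γ X]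
  [IsIsometricSMul Γ X] [TopologicalSpace B] [CompactSpace B] [T2Space B] [MulAction Γ B]
  [ContinuousConstSMul Γ B]

variable {L : Leaf Γ X B} {o : Orb L} (n : Nor L o)

theorem g_smooth : ContDiffOn ℝ ∞ n.g (ball 0 3) := n.smooth o.x rfl

theorem g_contDiffAt {u : E2} (hu : u ∈ ball (0 : E2) 3) : ContDiffAt ℝ ∞ n.g u :=
  (g_smooth n u hu).contDiffAt (isOpen_ball.mem_nhds hu)

theorem zero_mem3 : (0 : E2) ∈ ball (0 : E2) 3 := mem_ball_self (by norm_num)

theorem g_zero : n.g 0 = 0 := by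
  unfold Nor.g; rw [L.e_zero]; exact n.base

theorem g_det {u : E2} (hu : u ∈ ball (0 : E2) 3) : (fderiv ℝ n.g u).det ≠ 0 :=
  n.deriv o.x rfl u hu

/-- the derivative of `g` as an equivalence -/
def gE {u : E2} (hu : u ∈ ball (0 : E2) 3) : E2 ≃L[ℝ] E2 :=
  (fderiv ℝ n.g u).toContinuousLinearEquivOfDetNeZero (g_det n hu)

theorem g_hasFDerivAt {u : E2} (hu : u ∈ ball (0 : E2) 3) :
    HasFDerivAt n.g (gE n hu : E2 →L[ℝ] E2) u := by
  have h := ((g_contDiffAt n hu).differentiableAt (by simp)).hasFDerivAt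
  unfold gE
  rw [ContinuousLinearMap.coe_toContinuousLinearEquivOfDetNeZero]
  exact h

theorem exists_psi : ∃ (ψ : E2 → E2) (ρ : ℝ), 0 < ρ ∧ ContDiffOn ℝ ∞ ψ (ball 0 ρ) ∧ ψ 0 = 0 ∧
    (∀ z ∈ ball (0 : E2) ρ, ψ z ∈ ball (0 : E2) 3 ∧ n.g (ψ z) = z) ∧
    ∀ᶠ u in 𝓝 (0 : E2), ψ (n.g u) = u := by
  have h0 := g_contDiffAt n zero_mem3
  have h1 := g_hasFDerivAt n zero_mem3
  set Φ := h0.toOpenPartialHomeomorph n.g h1 (by simp) with hΦ
  have hs : (0 : E2) ∈ Φ.source := h0.mem_toOpenPartialHomeomorph_source h1 (by simp)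
  have hcoe : ∀ u, Φ u = n.g u := fun u => rfl
  have ht : (0 : E2) ∈ Φ.target := by
    have := Φ.map_source hs
    rwa [hcoe, g_zero] at this
  have hsymm0 : Φ.symm 0 = 0 := by
    have := Φ.left_inv hs
    rwa [hcoe, g_zero] at this
  have hcont : ContinuousAt Φ.symm 0 := Φ.symm.continuousAt ht
  have hev : ∀ᶠ z in 𝓝 (0 : E2), Φ.symm z ∈ ball (0 : E2) 3 := by
    refine hcont.eventually ?_
    rw [hsymm0]; exact isOpen_ball.mem_nhds zero_mem3
  obtain ⟨ρ, hρ, hball⟩ := Metric.eventually_nhds_iff_ball.1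
    ((Φ.open_target.eventually_mem ht).and hev)
  refine ⟨Φ.symm, ρ, hρ, ?_, hsymm0, ?_, ?_⟩
  · intro z hz
    refine ContDiffAt.contDiffWithinAt ?_
    refine Φ.contDiffAt_symm (hball z hz).1 (f₀' := gE n (hball z hz).2) ?_ ?_
    · exact g_hasFDerivAt n (hball z hz).2
    · exact g_contDiffAt n (hball z hz).2
  · intro z hz
    exact ⟨(hball z hz).2, Φ.right_inv (hball z hz).1⟩
  · filter_upwards [Φ.open_source.eventually_mem hs] with u hu
    exact Φ.left_inv hu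

/-- the inverse of the normal coordinate near `0` -/
def psi : E2 → E2 := Classical.choose (exists_psi n)

/-- the radius -/
def rad : ℝ := Classical.choose (Classical.choose_spec (exists_psi n))

theorem psi_spec : 0 < rad n ∧ ContDiffOn ℝ ∞ (psi n) (ball 0 (rad n)) ∧ psi n 0 = 0 ∧
    (∀ z ∈ ball (0 : E2) (rad n), psi n z ∈ ball (0 : E2) 3 ∧ n.g (psi n z) = z) ∧
    ∀ᶠ u in 𝓝 (0 : E2), psi n (n.g u) = u :=
  Classical.choose_spec (Classical.choose_spec (exists_psi n))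

theorem rad_pos : 0 < rad n := (psi_spec n).1

theorem psi_zero : psi n 0 = 0 := (psi_spec n).2.2.1

theorem psi_contDiffAt {z : E2} (hz : z ∈ ball (0 : E2) (rad n)) : ContDiffAt ℝ ∞ (psi n) z :=
  ((psi_spec n).2.1 z hz).contDiffAt (isOpen_ball.mem_nhds hz)

theorem psi_mem {z : E2} (hz : z ∈ ball (0 : E2) (rad n)) : psi n z ∈ ball (0 : E2) 3 :=
  ((psi_spec n).2.2.2.1 z hz).1

theorem g_psi {z : E2} (hz : z ∈ ball (0 : E2) (rad n)) : n.g (psi n z) = z :=
  ((psi_spec n).2.2.2.1 z hz).2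

theorem e_ne_neg {u : E2} (hu : u ∈ closedBall (0 : E2) 3) : L.e o.x u ≠ o.neg :=
  L.e_ne o.x u hu

/-- the point of the leaf with normal coordinate `z` -/
theorem e_psi {z : E2} (hz : z ∈ ball (0 : E2) (rad n)) : L.e o.x (psi n z) = n.inv z := by
  have h1 : n.x (L.e o.x (psi n z)) = z := g_psi n hz
  have h2 := n.inv_left (L.e o.x (psi n z))
    (e_ne_neg (ball_subset_closedBall (psi_mem n hz)))
  rw [h1] at h2; exact h2.symm

end Vale.Agent.P207.N3.H503
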