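import Vale.Agent.P207.N3.H503.Loc
import Vale.Agent.P207.N3.H503.Iter
import Vale.Agent.P207.N3.Top.Orb

/-!
# P207, N3-P13T: the tensor of `E^s` in the normal coordinate, its equivariance
-/

open Set Filter Topology Metric MeasureTheory
open scoped ContDiff

noncomputable section

namespace Vale.Agent.P207.N3.H503

open H790 (NF)
open H545

/-! ### Linear algebra and calculus -/

theorem conj_comp (A A' M : E2 →L[ℝ] E2) : conj (A ∘L A') M = conj A (conj A' M) := by
  unfold conj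
  rw [ContinuousLinearMap.adjoint_comp]
  ext v
  simp

theorem conj_add (A M M' : E2 →L[ℝ] E2) : conj A (M + M') = conj A M + conj A M' := by
  unfold conj
  ext v
  simp

theorem conj_sub (A M M' : E2 →L[ℝ] E2) : conj A (M - M') = conj A M - conj A M' := by
  unfold conj
  ext v
  simp

theorem conj_smul (A M : E2 →L[ℝ] E2) (c : ℝ) : conj A (c • M) = c • conj A M := by
  unfold conj
  ext v
  simp

theorem conj_apply (A M : E2 →L[ℝ] E2) (v : E2) :
    conj A M v = A (M (ContinuousLinearMap.adjoint A v)) := rfl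

/-- the adjoint as a continuous linear map -/
def adjL : (E2 →L[ℝ] E2) →L[ℝ] (E2 →L[ℝ] E2) :=
  LinearMap.toContinuousLinearMap
    { toFun := fun A => ContinuousLinearMap.adjoint A
      map_add' := fun A A' => map_add _ A A'
      map_smul' := fun c A => by simp }

theorem adjL_apply (A : E2 →L[ℝ] E2) : adjL A = ContinuousLinearMap.adjoint A := rfl

theorem conj_contDiffAt {E : Type} [NormedAddCommGroup E] [NormedSpace ℝ E]
    {A M : E → E2 →L[ℝ] E2} {z : E} {m : WithTop ℕ∞} (hA : ContDiffAt ℝ m A z)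
    (hM : ContDiffAt ℝ m M z) : ContDiffAt ℝ m (fun z => conj (A z) (M z)) z := by
  have h1 : ContDiffAt ℝ m (fun z => ContinuousLinearMap.adjoint (A z)) z :=
    (adjL.contDiff (n := m)).contDiffAt.comp z hA
  exact hA.clm_comp (hM.clm_comp h1)

theorem SN.conj {E : Type} [NormedAddCommGroup E] [NormedSpace ℝ E]
    {A M : E → E2 →L[ℝ] E2} (hA : SN A) (hM : SN M) : SN (fun z => conj (A z) (M z)) := by
  filter_upwards [hA, hM] with z h1 h2
  exact conj_contDiffAt h1 h2

theorem gradient_inner {P : E2 → ℝ} (w v : E2) :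
    inner ℝ (gradient P w) v = fderiv ℝ P w v := by
  rw [gradient, InnerProductSpace.toDual_symm_apply]

/-- chain rule for gradients -/
theorem gradient_comp {P : E2 → ℝ} {f : E2 → E2} {w : E2} (hP : DifferentiableAt ℝ P (f w))
    (hf : DifferentiableAt ℝ f w) : gradient (fun z => P (f z)) w =
      ContinuousLinearMap.adjoint (fderiv ℝ f w) (gradient P (f w)) := by
  refine ext_inner_right ℝ fun v => ?_
  rw [gradient_inner, ContinuousLinearMap.adjoint_inner_left, gradient_inner]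
  have h := (hP.hasFDerivAt.comp w hf.hasFDerivAt).fderiv
  have h' : fderiv ℝ (fun z => P (f z)) w = (fderiv ℝ P (f w)).comp (fderiv ℝ f w) := h
  rw [h']; rfl

theorem SN.gradient {P : E2 → ℝ} (h : SN P) : SN (gradient P) := by
  filter_upwards [h] with z h1
  have h2 : ContDiffAt ℝ ∞ (_root_.fderiv ℝ P) z := h1.fderiv_right (m := ∞) (by simp)
  have h3 : ContDiff ℝ ∞ (fun A : E2 →L[ℝ] ℝ => (InnerProductSpace.toDual ℝ E2).symm A) :=
    (InnerProductSpace.toDual ℝ E2).symm.contDiff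
  exact h3.contDiffAt.comp z h2

/-! ### The return map -/

variable {Γ X B : Type} [Group Γ] [MetricSpace X] [ProperSpace X] [MulAction Γ X]
  [IsIsometricSMul Γ X] [TopologicalSpace B] [CompactSpace B] [T2Space B] [MulAction Γ B]
  [ContinuousConstSMul Γ B]

variable {L : Leaf Γ X B} {o : Orb L} (n : Nor L o)

theorem em_smul_x (o : Orb L) : L.em (o.β • o.x) = L.em o.x := by
  rw [L.em_smul]; exact o.smul_neg

theorem ep_smul_x (o : Orb L) : L.ep (o.β • o.x) = L.ep o.x := by
  rw [Orb.ep_smul']; exact o.smul_pos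

theorem zero_mem_dm (o : Orb L) : (0 : E2) ∈ L.dm (o.β • o.x) o.x := by
  refine ⟨mem_ball_self (by norm_num), ?_⟩
  rw [L.e_zero, ep_smul_x, ← L.e_zero]
  exact ⟨0, mem_ball_self (by norm_num), rfl⟩

theorem ev_dm (o : Orb L) : ∀ᶠ u in 𝓝 (0 : E2), u ∈ L.dm (o.β • o.x) o.x :=
  (isOpen_dm L _ _).eventually_mem (zero_mem_dm o)

theorem ret_zero (o : Orb L) : o.ret 0 = 0 := by
  refine tau_eq_of L (mem_closedBall_self (by norm_num)) ?_
  rw [L.e_zero, L.e_zero, ep_smul_x]

theorem ret_contDiffAt (o : Orb L) {u : E2} (hu : u ∈ L.dm (o.β • o.x) o.x) :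
    ContDiffAt ℝ ∞ o.ret u := tau_contDiffAt L (em_smul_x o) hu

theorem ret_SN (o : Orb L) : SN o.ret := by
  filter_upwards [ev_dm o] with u hu
  exact ret_contDiffAt o hu

theorem e_ret (o : Orb L) {u : E2} (hu : u ∈ L.dm (o.β • o.x) o.x) :
    L.e o.x (o.ret u) = o.β • L.e o.x u := by
  unfold Orb.ret
  rw [e_tau_dm L hu, L.e_smul _ _ _ (ball_subset_closedBall hu.1)]

theorem smul_ne_neg (o : Orb L) {η : B} (h : η ≠ o.neg) : o.β • η ≠ o.neg := by
  intro h1
  apply h
  have h2 := congrArg (fun b => o.β⁻¹ • b) h1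
  simp only [inv_smul_smul] at h2
  rw [h2, inv_smul_eq_iff]; exact o.smul_neg.symm

theorem x_smul {η : B} (h : η ≠ o.neg) : n.x η = n.N.fn (n.x (o.β • η)) := by
  have h1 := n.equiv (o.β • η) (smul_ne_neg o h)
  rwa [inv_smul_smul] at h1

theorem g_ret {u : E2} (hu : u ∈ L.dm (o.β • o.x) o.x) : n.g u = n.N.fn (n.g (o.ret u)) := by
  unfold Nor.g
  rw [e_ret o hu]
  exact x_smul n (e_ne_neg (ball_subset_closedBall hu.1))

theorem g_ret' {u : E2} (hu : u ∈ L.dm (o.β • o.x) o.x) : n.g (o.ret u) = n.N.inv (n.g u) := by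
  rw [g_ret n hu, NF.inv_fn n.ok]

theorem g_SN : SN n.g := SN.of_on (by norm_num) (g_smooth n)

theorem psi_SN : SN (psi n) := SN.of_on (rad_pos n) (psi_spec n).2.1

theorem inv_SN : SN n.N.inv := SN.of_contDiff n.N.contDiff_inv

theorem fn_SN : SN n.N.fn := SN.of_contDiff n.N.contDiff_fn

/-! ### The tensor in the normal coordinate -/

/-- the tensor of `E^s` in the normal coordinate, near `0` -/
def Mz (T : Tens L) (n : Nor L o) (z : E2) : E2 →L[ℝ] E2 :=
  conj (fderiv ℝ n.g (psi n z)) (T.N o.x (psi n z))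

theorem N_ret (T : Tens L) {u : E2} (hu : u ∈ L.dm (o.β • o.x) o.x) :
    T.N o.x (o.ret u) = conj (fderiv ℝ o.ret u) (T.N o.x u) + T.R (o.β • o.x) o.x u := by
  have h := T.R_eq (o.β • o.x) o.x (em_smul_x o) u hu
  rw [T.N_smul _ _ _ hu.1] at h
  exact h

theorem tendsto_of_SN {E : Type} [NormedAddCommGroup E] [NormedSpace ℝ E] {f : E → E}
    (h : SN f) (h0 : f 0 = 0) : Tendsto f (𝓝 0) (𝓝 0) := by
  have := h.self.continuousAt.tendsto; rwa [h0] at this

/-- **Equivariance of the tensor.** -/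
theorem Mz_eq (T : Tens L) : ∃ S : E2 → E2 →L[ℝ] E2, SN S ∧ ∀ᶠ z in 𝓝 (0 : E2),
    Mz T n z = conj (fderiv ℝ n.N.fn (n.N.inv z)) (Mz T n (n.N.inv z)) + S z := by
  have tpsi := tendsto_of_SN (psi_SN n) (psi_zero n)
  have tret := tendsto_of_SN (ret_SN o) (ret_zero o)
  have hRS : SN (fun u => T.R (o.β • o.x) o.x u) := by
    filter_upwards [ev_dm o] with u hu
    exact (T.R_smooth _ _ (em_smul_x o) u hu).contDiffAt ((isOpen_dm L _ _).mem_nhds hu)
  refine ⟨fun z => - conj (fderiv ℝ n.N.fn (n.N.inv z) ∘L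
    fderiv ℝ n.g (o.ret (psi n z))) (T.R (o.β • o.x) o.x (psi n z)), ?_, ?_⟩
  · refine (SN.conj (SN.clm_comp ?_ ?_) ?_).neg
    · exact (fn_SN n).fderiv.comp (inv_SN n) (NF.inv_zero n.ok)
    · exact ((g_SN n).fderiv.comp (ret_SN o) (ret_zero o)).comp (psi_SN n) (psi_zero n)
    · exact hRS.comp (psi_SN n) (psi_zero n)
  · have hg := (psi_spec n).2.2.2.2
    filter_upwards [ball_mem_nhds (0 : E2) (rad_pos n), tpsi.eventually (ev_dm o),
      (tret.comp tpsi).eventually hg, (tret.comp tpsi).eventually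
        (ball_mem_nhds (0 : E2) (show (0 : ℝ) < 3 by norm_num))] with z hz hu h1 h2
    set u := psi n z with hu'
    have e1 : n.g u = z := g_psi n hz
    have e2 : n.g (o.ret u) = n.N.inv z := by rw [g_ret' n hu, e1]
    have e3 : psi n (n.N.inv z) = o.ret u := by
      have h3 : psi n (n.g (o.ret u)) = o.ret u := h1
      rwa [e2] at h3
    have e4 : fderiv ℝ n.g u = (fderiv ℝ n.N.fn (n.N.inv z) ∘L
        fderiv ℝ n.g (o.ret u)) ∘L fderiv ℝ o.ret u := by
      have h4 : n.g =ᶠ[𝓝 u] fun w => n.N.fn (n.g (o.ret w)) := by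
        filter_upwards [(isOpen_dm L _ _).mem_nhds hu] with w hw
        exact g_ret n hw
      rw [h4.fderiv_eq]
      have h5 := ((ret_contDiffAt o hu).differentiableAt (by simp)).hasFDerivAt
      have h6 := ((g_contDiffAt n h2).differentiableAt (by simp)).hasFDerivAt
      have h7 : HasFDerivAt n.N.fn (fderiv ℝ n.N.fn (n.g (o.ret u))) (n.g (o.ret u)) :=
        ((n.N.contDiff_fn.contDiffAt).differentiableAt (by simp)).hasFDerivAt
      have h8 := (h7.comp _ h6).comp u h5
      rw [← e2]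
      exact h8.fderiv
    show conj (fderiv ℝ n.g u) (T.N o.x u) = _
    unfold Mz
    rw [e3, N_ret T hu, conj_add, conj_add, ← conj_comp, ← conj_comp, ← conj_comp, e4]
    abel

end Vale.Agent.P207.N3.H503
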