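import Vale.Agent.P207.N3.H503.Four
import Vale.Agent.P207.N3.H684.Divi
import Vale.Agent.P207.N3.H854.Chi

/-!
# P207, N3-P13T (4.2): the types of closed orbits
-/

open Set Filter Topology Metric MeasureTheory
open scoped ContDiff

noncomputable section

namespace Vale.Agent.P207.N3.H503

open H790 (NF)
open H545

/-- the division lemma (A2), helper684 -/
theorem divLemma : DivLemma := fun _ i m hu h => H684.ev_smooth_of_pow_mul i hu m h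

variable {Γ X B : Type} [Group Γ] [MetricSpace X] [ProperSpace X] [MulAction Γ X]
  [IsIsometricSMul Γ X] [TopologicalSpace B] [CompactSpace B] [T2Space B] [MulAction Γ B]
  [ContinuousConstSMul Γ B]

variable [MeasurableSpace B] [BorelSpace B] {L : Leaf Γ X B}

/-- one orbit -/
theorem typed_of (A : Area L) {T : Tens L} {k₀ : ℕ} (hR : Rough T k₀) (hlim : ∀ k, LimDir T k)
    (hdiv : ∀ (o : Orb L) (n : Nor L o), (∃ μ₁ μ₂ a k, n.N = .tri μ₁ μ₂ a k) →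
      Nonempty (DivIn T n)) (o : Orb L) (n : Nor L o) :
    ∃ p : Typed A T k₀, p.o.β = o.β * o.β ∧ p.o.x = o.x := by
  obtain ⟨n', i, hloc, h⟩ := exists_four divLemma hR hlim hdiv n
  rcases h with ⟨hS, ⟨μ₁, μ₂, a, k, hN⟩, rfl⟩ | ⟨hS, ⟨μ₁, μ₂, k, hN⟩, rfl⟩ |
    ⟨⟨μ, k, hN⟩, rfl⟩ | ⟨⟨μ, a, ha, hN⟩, rfl⟩
  · obtain ⟨t, -, ht⟩ := H854.typeF_of_loc A hR hN hS hloc
    exact ⟨⟨dbl o, t, Or.inl ht⟩, dbl_β o, rfl⟩
  · obtain ⟨t, -, ht⟩ := H854.typeS_of_loc A hR hN hS hloc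
    exact ⟨⟨dbl o, t, Or.inr (Or.inl ht)⟩, dbl_β o, rfl⟩
  · obtain ⟨t, -, ht⟩ := H854.typeC_of_loc A hR hN hloc
    exact ⟨⟨dbl o, t, Or.inr (Or.inr (Or.inl ht))⟩, dbl_β o, rfl⟩
  · obtain ⟨t, -, ht⟩ := H854.typeJ_of_loc A hR ha hN hloc
    exact ⟨⟨dbl o, t, Or.inr (Or.inr (Or.inr ht))⟩, dbl_β o, rfl⟩

/-- **(P13T, 4.2) Types of closed orbits**, the field `types` of `Outs` / `Rem`. Inputs: normal
coordinates (790), `DivIn` (P3, P10, LINK; helper12) and `LimDir` (P4, P5; helper545). -/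
theorem types_of (A : Area L) (T : Tens L) (nor : ∀ o : Orb L, Nonempty (Nor L o))
    (hdiv : ∀ (o : Orb L) (n : Nor L o), (∃ μ₁ μ₂ a k, n.N = .tri μ₁ μ₂ a k) →
      Nonempty (DivIn T n))
    (hlim : (∀ k : ℕ, Start T k) → ∀ k, LimDir T k) :
    ∀ k₀, Rough T k₀ → (∀ k : ℕ, Start T k) → Types A T k₀ := by
  intro k₀ hR hS o
  obtain ⟨n⟩ := nor o
  obtain ⟨p, h1, h2⟩ := typed_of A hR (hlim hS) hdiv o n
  exact ⟨p, Or.inr h1, h2⟩

end Vale.Agent.P207.N3.H503
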