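import Vale.Agent.P207.N3.H503.Types
import Vale.Agent.P207.N3.H545.LimDir

/-!
# P207, N3-P13T (4.2): the field `types`, with helper545's `limDir`
-/

open Set Filter Topology Metric MeasureTheory
open scoped ContDiff

noncomputable section

namespace Vale.Agent.P207.N3.H503

open H790 (NF)

variable {Γ X B : Type} [Group Γ] [MetricSpace X] [ProperSpace X] [MulAction Γ X]
  [IsIsometricSMul Γ X] [TopologicalSpace B] [CompactSpace B] [T2Space B] [MulAction Γ B]
  [ContinuousConstSMul Γ B] [MeasurableSpace B] [BorelSpace B]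

variable {L : Leaf Γ X B}

/-- **(P13T, 4.2) Types of closed orbits**, the field `types` of `Outs` / `Rem`. Inputs: normal
coordinates and P4b (790, 147), `DivIn` (P3, P10, LINK; helper12). -/
theorem types_out (A : Area L) (T : Tens L) (nor : ∀ o : Orb L, Nonempty (Nor L o))
    (hF : ∀ (o : Orb L) (n : Nor L o), ∃ c, Nonempty (H147.Fwd o n.x n.N.fn c))
    (hdiv : ∀ (o : Orb L) (n : Nor L o), (∃ μ₁ μ₂ a k, n.N = .tri μ₁ μ₂ a k) →
      Nonempty (DivIn T n)) :
    ∀ k₀, Rough T k₀ → (∀ k : ℕ, Start T k) → Types A T k₀ :=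
  types_of A T nor hdiv fun hS => H545.limDir T hS hF

end Vale.Agent.P207.N3.H503
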